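import Mathlib
/-! Combinatorics of far apart conjugates in a free group. -/
set_option autoImplicit false
set_option linter.deprecated false
set_option linter.unusedSimpArgs false
set_option linter.unusedVariables false
set_option linter.unusedSectionVars false
set_option linter.style.haveILetI false
namespace Crest.Agent.FG
open FreeGroup

/-- ordered products -/
def pr {Γ : Type} [Monoid Γ] (u : ℕ → Γ) : ℕ → Γ
  | 0 => 1
  | k + 1 => pr u k * u k

theorem map_pr {Γ Γ' : Type} [Monoid Γ] [Monoid Γ'] (f : Γ → Γ') (h1 : f 1 = 1) {u : ℕ → Γ}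
    (hm : ∀ k, f (pr u k * u k) = f (pr u k) * f (u k)) (k : ℕ) :
    f (pr u k) = pr (fun j => f (u j)) k := by
  induction k with
  | zero => exact h1
  | succ k ih => rw [pr, pr, hm, ih]

theorem pr_congr {Γ : Type} [Monoid Γ] {u v : ℕ → Γ} {k : ℕ} (h : ∀ j < k, u j = v j) :
    pr u k = pr v k := by
  induction k with
  | zero => rfl
  | succ k ih => rw [pr, pr, ih fun j hj => h j (by omega), h k (by omega)]

theorem pr_single {Γ : Type} [Monoid Γ] {u : ℕ → Γ} {k : ℕ} (i : ℕ) (h : ∀ j < k, j ≠ i → u j = 1) :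
    pr u k = if i < k then u i else 1 := by
  induction k with
  | zero => rfl
  | succ k ih =>
    rw [pr, ih fun j hj => h j (by omega)]
    rcases lt_trichotomy i k with h1 | rfl | h1
    · rw [if_pos h1, if_pos (by omega), h k (by omega) (by omega), mul_one]
    · simp
    · rw [if_neg (by omega), if_neg (by omega), h k (by omega) (by omega), mul_one]

theorem pr_mem {Γ S : Type} [Monoid Γ] [SetLike S Γ] [SubmonoidClass S Γ] (s : S) {u : ℕ → Γ}
    (h : ∀ j, u j ∈ s) (k : ℕ) : pr u k ∈ s := by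
  induction k with
  | zero => exact one_mem s
  | succ k ih => exact mul_mem ih (h k)

theorem fg_ind {ι : Type} (p : FreeGroup ι → Prop) (h1 : p 1) (hof : ∀ a, p (of a))
    (hinv : ∀ g, p g → p g⁻¹) (hmul : ∀ g h, p g → p h → p (g * h)) (g : FreeGroup ι) : p g :=
  FreeGroup.induction_on g h1 hof (fun a h => hinv _ h) hmul

/-- three distinguished letters -/
structure Dat (ι : Type) where
  x : ι
  y : ι
  c : ι
  xy : y ≠ x
  xc : c ≠ x
  yc : y ≠ c

namespace Dat
variable {ι : Type} [DecidableEq ι] (δ : Dat ι)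

/-- degree in `x` -/
def deg : FreeGroup ι →* Multiplicative ℤ :=
  FreeGroup.lift fun a => if a = δ.x then Multiplicative.ofAdd 1 else 1

/-- degree in `x` -/
def dg (g : FreeGroup ι) : ℤ := Multiplicative.toAdd (δ.deg g)

@[simp] theorem dg_mul (g h : FreeGroup ι) : δ.dg (g * h) = δ.dg g + δ.dg h := by simp [dg]
@[simp] theorem dg_inv (g : FreeGroup ι) : δ.dg g⁻¹ = -δ.dg g := by simp [dg]
@[simp] theorem dg_one : δ.dg 1 = 0 := by simp [dg]
@[simp] theorem dg_zpow (g : FreeGroup ι) (e : ℤ) : δ.dg (g ^ e) = e * δ.dg g := by simp [dg]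
@[simp] theorem dg_x : δ.dg (of δ.x) = 1 := by simp [dg, deg]
theorem dg_of {a : ι} (h : a ≠ δ.x) : δ.dg (of a) = 0 := by simp [dg, deg, h]
@[simp] theorem dg_y : δ.dg (of δ.y) = 0 := δ.dg_of δ.xy
@[simp] theorem dg_c : δ.dg (of δ.c) = 0 := δ.dg_of δ.xc

/-- shift action -/
def shf (Γ : Type) [Group Γ] : Multiplicative ℤ →* MulAut (ℤ → Γ) where
  toFun d :=
    { toFun := fun F p => F (p + d.toAdd)
      invFun := fun F p => F (p - d.toAdd)
      left_inv := fun F => by simp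
      right_inv := fun F => by simp
      map_mul' := fun _ _ => rfl }
  map_one' := by ext; simp
  map_mul' a b := by ext; simp [add_assoc]

variable {Γ : Type} [Group Γ]

/-- wreath product representation -/
def wr (θ : ℤ → ι → Γ) : FreeGroup ι →* (ℤ → Γ) ⋊[shf Γ] Multiplicative ℤ :=
  FreeGroup.lift fun a => if a = δ.x then ⟨1, Multiplicative.ofAdd 1⟩ else ⟨fun p => θ p a, 1⟩

/-- reading a word from position `p` -/
def psi (θ : ℤ → ι → Γ) (g : FreeGroup ι) (p : ℤ) : Γ := (δ.wr θ g).left p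

theorem wr_right (θ : ℤ → ι → Γ) (g : FreeGroup ι) : (δ.wr θ g).right = δ.deg g := by
  have : SemidirectProduct.rightHom.comp (δ.wr θ) = δ.deg := by
    ext a; by_cases h : a = δ.x <;> simp [wr, deg, h]
  exact DFunLike.congr_fun this g

theorem psi_mul (θ : ℤ → ι → Γ) (g h : FreeGroup ι) (p : ℤ) :
    δ.psi θ (g * h) p = δ.psi θ g p * δ.psi θ h (p + δ.dg g) := by
  rw [psi, _root_.map_mul, SemidirectProduct.mul_left, wr_right]; rfl

@[simp] theorem psi_one (θ : ℤ → ι → Γ) (p : ℤ) : δ.psi θ 1 p = 1 := by simp [psi]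

@[simp] theorem psi_x (θ : ℤ → ι → Γ) (p : ℤ) : δ.psi θ (of δ.x) p = 1 := by simp [psi, wr]

theorem psi_of (θ : ℤ → ι → Γ) {a : ι} (h : a ≠ δ.x) (p : ℤ) : δ.psi θ (of a) p = θ p a := by
  simp [psi, wr, h]

theorem psi_inv (θ : ℤ → ι → Γ) (g : FreeGroup ι) (p : ℤ) :
    δ.psi θ g⁻¹ p = (δ.psi θ g (p - δ.dg g))⁻¹ := by
  have := δ.psi_mul θ g⁻¹ g p
  rw [inv_mul_cancel, psi_one, dg_inv] at this
  exact eq_inv_of_mul_eq_one_left this.symm

theorem psi_zpow (θ : ℤ → ι → Γ) {g : FreeGroup ι} (h : δ.dg g = 0) (e : ℤ) (p : ℤ) :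
    δ.psi θ (g ^ e) p = δ.psi θ g p ^ e := by
  induction e using Int.induction_on with
  | zero => simp
  | succ n ih => rw [zpow_add_one, zpow_add_one, psi_mul, ih, dg_zpow, h, mul_zero, add_zero]
  | pred n ih => rw [zpow_sub_one, zpow_sub_one, psi_mul, ih, psi_inv, dg_zpow, h]; simp

@[simp] theorem psi_xpow (θ : ℤ → ι → Γ) (e p : ℤ) : δ.psi θ (of δ.x ^ e) p = 1 := by
  induction e using Int.induction_on generalizing p with
  | zero => simp
  | succ n ih => rw [zpow_add_one, psi_mul, ih]; simp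
  | pred n ih => rw [zpow_sub_one, psi_mul, ih, psi_inv]; simp

/-- conjugation by powers of `x` -/
def sh (p : ℤ) (g : FreeGroup ι) : FreeGroup ι := of δ.x ^ p * g * of δ.x ^ (-p)

@[simp] theorem dg_sh (p : ℤ) (g : FreeGroup ι) : δ.dg (δ.sh p g) = δ.dg g := by simp [sh]

theorem psi_sh (θ : ℤ → ι → Γ) (q : ℤ) (g : FreeGroup ι) (p : ℤ) :
    δ.psi θ (δ.sh q g) p = δ.psi θ g (p + q) := by
  simp only [sh, psi_mul, psi_xpow, one_mul, mul_one, dg_zpow, dg_x]

/-- locality radius -/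
def Loc (g : FreeGroup ι) (R : ℤ) : Prop :=
  |δ.dg g| ≤ R ∧ ∀ (Γ : Type) [Group Γ] (θ θ' : ℤ → ι → Γ) (p p' : ℤ),
    (∀ q a, |q| ≤ R → θ (p + q) a = θ' (p' + q) a) → δ.psi θ g p = δ.psi θ' g p'

variable {δ} in
theorem Loc.mono {g : FreeGroup ι} {R R' : ℤ} (h : δ.Loc g R) (hR : R ≤ R') : δ.Loc g R' :=
  ⟨h.1.trans hR, fun Γ _ θ θ' p p' e => h.2 Γ θ θ' p p' fun q a hq => e q a (hq.trans hR)⟩

theorem exists_loc (g : FreeGroup ι) : ∃ R, 0 ≤ R ∧ δ.Loc g R := by
  refine fg_ind (fun g => ∃ R, 0 ≤ R ∧ δ.Loc g R) ⟨0, le_rfl, by simp, by simp⟩ (fun a => ?_) ?_ ?_ g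
  · by_cases h : a = δ.x
    · exact ⟨1, zero_le_one, by simp [h], by simp [h]⟩
    · exact ⟨0, le_rfl, by simp [δ.dg_of h], fun Γ _ θ θ' p p' e => by
        simpa [δ.psi_of _ h] using e 0 a (by simp)⟩
  · rintro g ⟨R, h0, h1, h2⟩
    refine ⟨2 * R, by omega, by rw [dg_inv, abs_neg]; omega, fun Γ _ θ θ' p p' e => ?_⟩
    rw [psi_inv, psi_inv, h2 Γ θ θ' _ (p' - δ.dg g) fun q a hq => ?_]
    have := e (q - δ.dg g) a (by rw [abs_le] at *; omega)
    convert this using 2 <;> ring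
  · rintro g h ⟨R, h0, h1, h2⟩ ⟨R', h0', h1', h2'⟩
    refine ⟨R + R', by omega, by rw [dg_mul]; rw [abs_le] at *; omega, fun Γ _ θ θ' p p' e => ?_⟩
    rw [psi_mul, psi_mul, h2 Γ θ θ' p p' fun q a hq => e q a (by omega),
      h2' Γ θ θ' _ (p' + δ.dg g) fun q a hq => ?_]
    have := e (δ.dg g + q) a (by rw [abs_le] at *; omega)
    rwa [← add_assoc, ← add_assoc] at this

theorem psi_can (g : FreeGroup ι) (p : ℤ) :
    δ.psi (fun q a => δ.sh q (of a)) g p = of δ.x ^ p * g * of δ.x ^ (-(p + δ.dg g)) := by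
  refine fg_ind (fun g => ∀ p, δ.psi (fun q a => δ.sh q (of a)) g p =
    of δ.x ^ p * g * of δ.x ^ (-(p + δ.dg g))) (by simp) (fun a p => ?_) (fun g h p => ?_)
    (fun g k h h' p => ?_) g p
  · by_cases h : a = δ.x
    · rw [h, psi_x, dg_x]; group
    · rw [δ.psi_of _ h, δ.dg_of h, sh, add_zero]
  · rw [psi_inv, h, dg_inv]; group
  · rw [psi_mul, h, h', dg_mul]; group

theorem psi_triv (g : FreeGroup ι) (p : ℤ) : δ.psi (fun _ _ => (1 : Γ)) g p = 1 := by
  refine fg_ind (fun g => ∀ p, δ.psi (fun _ _ => (1 : Γ)) g p = 1) (by simp) (fun a p => ?_)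
    (fun g h p => by rw [psi_inv, h, inv_one]) (fun g k h h' p => by rw [psi_mul, h, h', one_mul]) g p
  by_cases h : a = δ.x
  · rw [h, psi_x]
  · rw [δ.psi_of _ h]

variable {δ}

theorem Loc.eq_self {g : FreeGroup ι} {R : ℤ} (h : δ.Loc g R) (h0 : δ.dg g = 0)
    {θ : ℤ → ι → FreeGroup ι} {p : ℤ} (e : ∀ q a, |q| ≤ R → θ (p + q) a = δ.sh q (of a)) :
    δ.psi θ g p = g := by
  rw [h.2 _ θ (fun q a => δ.sh q (of a)) p 0 (by simpa using e), psi_can]; simp [h0]

theorem Loc.eq_one {g : FreeGroup ι} {R : ℤ} (h : δ.Loc g R)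
    {θ : ℤ → ι → Γ} {p : ℤ} (e : ∀ q a, |q| ≤ R → θ (p + q) a = 1) : δ.psi θ g p = 1 := by
  rw [h.2 _ θ (fun _ _ => 1) p 0 e, psi_triv]

theorem eq_one_of_comm {g : FreeGroup ι} (h0 : δ.dg g = 0) (h : Commute (of δ.x) g) : g = 1 := by
  obtain ⟨R, hR, hl⟩ := δ.exists_loc g
  let θ : ℤ → ι → FreeGroup ι := fun q a => if |q| ≤ R then δ.sh q (of a) else 1
  have h1 : δ.psi θ g 0 = g := hl.eq_self h0 fun q a hq => by simp [θ, hq]
  have h2 : δ.sh (2 * R + 1) g = g := by
    rw [sh, (h.zpow_left _).eq]; group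
  rw [← h1, ← h2, psi_sh]
  exact hl.eq_one fun q a hq => if_neg (by rw [abs_le] at *; omega)

/-- mixing at the level of the group -/
theorem mix_grp {g b e : FreeGroup ι} (hg : δ.dg g = 0) (hb : δ.dg b = 0) (he : δ.dg e = 0) :
    ∃ R, ∀ p, R ≤ p → δ.sh p g * e * δ.sh p (of δ.y) * b = 1 → g * of δ.y = 1 ∧ e = 1 ∧ b = 1 := by
  obtain ⟨R1, r1, l1⟩ := δ.exists_loc g
  obtain ⟨R2, r2, l2⟩ := δ.exists_loc b
  obtain ⟨R3, r3, l3⟩ := δ.exists_loc e
  replace l1 := l1.mono (R' := R1 + R2 + R3) (by omega)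
  replace l2 := l2.mono (R' := R1 + R2 + R3) (by omega)
  replace l3 := l3.mono (R' := R1 + R2 + R3) (by omega)
  set R := R1 + R2 + R3 with hR
  refine ⟨2 * R + 1, fun p hp h => ?_⟩
  have key : ∀ θ : ℤ → ι → FreeGroup ι,
      δ.psi θ g p * δ.psi θ e 0 * θ p δ.y * δ.psi θ b 0 = 1 := fun θ => by
    simpa [psi_mul, psi_sh, hg, he, δ.psi_of _ δ.xy] using congrArg (fun k => δ.psi θ k 0) h
  have k1 := key fun q a => if |q| ≤ R then δ.sh q (of a) else 1
  rw [l1.eq_one fun q a hq => if_neg (by rw [abs_le] at *; omega),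
    l3.eq_self he fun q a hq => by simp [hq], l2.eq_self hb fun q a hq => by simp [hq],
    if_neg (by rw [abs_le]; omega), one_mul, mul_one] at k1
  have k2 := key fun q a => if |q| ≤ R then 1 else δ.sh (q - p) (of a)
  rw [l1.eq_self hg fun q a hq => by rw [if_neg (by rw [abs_le] at *; omega), add_sub_cancel_left],
    l3.eq_one fun q a hq => by simp [hq], l2.eq_one fun q a hq => by simp [hq],
    if_neg (by rw [abs_le]; omega), mul_one, mul_one, sub_self] at k2
  have k2' : g * of δ.y = 1 := by simpa [sh] using k2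
  have hg' : g = (of δ.y)⁻¹ := eq_inv_of_mul_eq_one_left k2'
  have k3 := key fun q a => if |q| ≤ R then δ.sh q (of a) else of δ.x
  rw [l3.eq_self he fun q a hq => by simp [hq], l2.eq_self hb fun q a hq => by simp [hq],
    hg', psi_inv, δ.psi_of _ δ.xy, dg_y, sub_zero, if_neg (by rw [abs_le]; omega)] at k3
  have k4 : e = 1 := eq_one_of_comm he (by
    have : b = e⁻¹ := eq_inv_of_mul_eq_one_right k1
    rw [this, mul_inv_eq_one, mul_assoc, inv_mul_eq_iff_eq_mul] at k3
    exact k3.symm)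
  exact ⟨k2', k4, by simpa [k4] using k1⟩

variable (δ)

/-- the word `w` -/
def wd (p : ℕ → ℤ) (k : ℕ) : FreeGroup ι := pr (fun j => δ.sh (p j) (of δ.y)) k

/-- the cyclic word -/
def WW (p : ℕ → ℤ) (D : ℕ) : FreeGroup ι := of δ.c * δ.wd p D

/-- prefixes -/
def TT (p : ℕ → ℤ) : Option ℕ → FreeGroup ι
  | none => 1
  | some k => of δ.c * δ.wd p k * of δ.x ^ p k

/-- positions -/
def PP (p : ℕ → ℤ) : Option ℕ → ℤ
  | none => 0
  | some k => p k

/-- rotations of the cyclic word -/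
def Wk (p : ℕ → ℤ) (D : ℕ) (k : Option ℕ) : FreeGroup ι := (δ.TT p k)⁻¹ * δ.WW p D * δ.TT p k

/-- admissible slots -/
def ok (D : ℕ) (k : Option ℕ) : Prop := ∀ j, k = some j → j < D

/-- spread positions -/
def Spread (R : ℤ) (p : ℕ → ℤ) (D : ℕ) : Prop :=
  ∀ k l, ok D k → ok D l → k ≠ l → R < |PP p k - PP p l|

@[simp] theorem dg_wd (p : ℕ → ℤ) (k : ℕ) : δ.dg (δ.wd p k) = 0 := by
  induction k with
  | zero => simp [wd, pr]
  | succ k ih => rw [wd, pr, dg_mul, ← wd, ih]; simp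

@[simp] theorem dg_WW (p : ℕ → ℤ) (D : ℕ) : δ.dg (δ.WW p D) = 0 := by simp [WW]

@[simp] theorem dg_TT (p : ℕ → ℤ) (k : Option ℕ) : δ.dg (δ.TT p k) = PP p k := by
  cases k <;> simp [TT, PP]

@[simp] theorem dg_Wk (p : ℕ → ℤ) (D : ℕ) (k : Option ℕ) : δ.dg (δ.Wk p D k) = 0 := by simp [Wk]

theorem psi_wd (θ : ℤ → ι → Γ) (p : ℕ → ℤ) (k : ℕ) (q : ℤ) :
    δ.psi θ (δ.wd p k) q = pr (fun j => θ (q + p j) δ.y) k := by
  induction k with
  | zero => simp [wd, pr]
  | succ k ih =>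
    rw [wd, pr, psi_mul, ← wd, ih, dg_wd, add_zero, psi_sh, δ.psi_of _ δ.xy, pr]

theorem psi_WW (θ : ℤ → ι → Γ) (p : ℕ → ℤ) (D : ℕ) (q : ℤ) :
    δ.psi θ (δ.WW p D) q = θ q δ.c * pr (fun j => θ (q + p j) δ.y) D := by
  rw [WW, psi_mul, δ.psi_of _ δ.xc, psi_wd, dg_c, add_zero]

theorem psi_conj {Γ : Type} [CommGroup Γ] (θ : ℤ → ι → Γ) (a : FreeGroup ι) {n : FreeGroup ι}
    (h : δ.dg n = 0) (q : ℤ) : δ.psi θ (a * n * a⁻¹) q = δ.psi θ n (q + δ.dg a) := by
  rw [psi_mul, psi_mul, psi_inv]; simp [h]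

/-- counting a letter at a position -/
def cnt (s : ℤ) (l : ι) : ℤ → ι → Multiplicative ℤ :=
  fun q a => if q = s ∧ a = l then Multiplicative.ofAdd 1 else 1

theorem cnt_c (p : ℕ → ℤ) (D : ℕ) (k : Option ℕ) (a : FreeGroup ι) (s e : ℤ) :
    δ.psi (cnt s δ.c) (a * δ.Wk p D k ^ e * a⁻¹) 0 =
      (if δ.dg a - PP p k = s then Multiplicative.ofAdd 1 else 1) ^ e := by
  have e1 : a * δ.Wk p D k ^ e * a⁻¹ =
      (a * (δ.TT p k)⁻¹) * δ.WW p D ^ e * (a * (δ.TT p k)⁻¹)⁻¹ := by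
    have := conj_zpow (a := (δ.TT p k)⁻¹) (b := δ.WW p D) (i := e)
    rw [inv_inv] at this
    rw [Wk, this]; group
  rw [e1, psi_conj _ _ _ (by simp), psi_zpow _ _ (by simp), psi_WW,
    pr_single D fun j _ _ => by simp [cnt, δ.yc]]
  simp [cnt, sub_eq_add_neg]

theorem off_diag {p : ℕ → ℤ} {D : ℕ} (hs : Spread 0 p D) {k l : Option ℕ} (hk : ok D k)
    (hl : ok D l) {e : ℤ} (he : e ≠ 0)
    (h : δ.TT p l * δ.Wk p D k ^ e * (δ.TT p l)⁻¹ = δ.WW p D ^ e) : k = l := by
  by_contra hkl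
  have h1 := δ.cnt_c p D k (δ.TT p l) 0 e
  have h2 := δ.cnt_c p D none 1 0 e
  have h3 := hs l k hl hk (Ne.symm hkl)
  rw [h, dg_TT, if_neg (by rintro h; simp [h] at h3)] at h1
  simp only [Wk, TT, inv_one, one_mul, mul_one, h1, dg_one, PP, sub_self, if_true] at h2
  have := congrArg Multiplicative.toAdd h2
  simp at this
  exact he this.symm

theorem Wk_inj {p : ℕ → ℤ} {D : ℕ} (hs : Spread 0 p D) {k l : Option ℕ} (hk : ok D k)
    (hl : ok D l) {e : ℤ} (he : e ≠ 0) (h : δ.Wk p D k ^ e = δ.Wk p D l ^ e) : k = l := by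
  by_contra hkl
  have h1 := δ.cnt_c p D k 1 (-PP p l) e
  have h2 := δ.cnt_c p D l 1 (-PP p l) e
  have h3 := hs k l hk hl hkl
  rw [h, h2, dg_one, if_pos (by simp), if_neg (by intro h; rw [lt_abs] at h3; omega)] at h1
  have := congrArg Multiplicative.toAdd h1
  simp at this
  exact he this

theorem psi_Wk {p : ℕ → ℤ} {D : ℕ} (hD : 0 < D) {R : ℤ} (hR : 0 ≤ R) (hs : Spread R p D)
    {k : Option ℕ} (hk : ok D k) (h : FreeGroup ι) :
    ∃ θ : ℤ → ι → FreeGroup ι, (∀ q a, |q| ≤ R → θ q a = δ.sh q (of a)) ∧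
      δ.psi θ (δ.Wk p D k) 0 = h := by
  have hok : ∀ j < D, ok D (some j) := fun j hj _ e => by cases e; exact hj
  have hn : ok D none := fun _ e => by cases e
  cases k with
  | none =>
    refine ⟨fun q a => if |q| ≤ R then δ.sh q (of a) else if q = p 0 then (of δ.c)⁻¹ * h else 1,
      fun q a hq => if_pos hq, ?_⟩
    have h1 : ∀ j < D, ¬ |p j| ≤ R := fun j hj => by
      simpa [PP] using hs (some j) none (hok j hj) hn (by simp)
    simp only [Wk, TT, inv_one, one_mul, mul_one, psi_WW, zero_add]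
    rw [pr_single 0 fun j hj h0 => ?_, if_pos hD, if_neg (h1 0 hD), if_pos rfl, if_pos (by simpa)]
    · simp [sh]
    · rw [if_neg (h1 j hj), if_neg]
      intro e
      have := hs (some j) (some 0) (hok j hj) (hok 0 hD) (by simpa using h0)
      simp [PP, e] at this; omega
  | some k =>
    have hk' : k < D := hk k rfl
    have h1 : ¬ |-p k| ≤ R := by simpa [PP] using hs (some k) none hk hn (by simp)
    have h2 : ∀ j < D, j ≠ k → ¬ |-p k + p j| ≤ R := fun j hj hjk => by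
      have := hs (some j) (some k) (hok j hj) hk (by simpa using hjk)
      simp only [PP] at this
      rw [neg_add_eq_sub]; omega
    refine ⟨fun q a => if |q| ≤ R then δ.sh q (of a) else if a = δ.c then (of δ.y)⁻¹ * h else 1,
      fun q a hq => if_pos hq, ?_⟩
    simp only [Wk, TT, psi_mul, psi_inv, psi_WW, psi_wd, δ.psi_of _ δ.xc, psi_xpow, dg_mul, dg_inv,
      dg_c, dg_wd, dg_zpow, dg_x, dg_WW, zero_add, add_zero, mul_one, zero_sub, if_neg h1, if_true]
    rw [pr_single k fun j hj h0 => by rw [if_neg (h2 j (by omega) h0), if_neg δ.yc],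
      pr_single k fun j hj h0 => by rw [if_neg (h2 j hj h0), if_neg δ.yc], if_neg (lt_irrefl k),
      if_pos hk', if_pos (by simpa)]
    simp [sh, mul_assoc]

/-- far rotations behave like fresh free letters -/
theorem uniq {p : ℕ → ℤ} {D : ℕ} (hD : 0 < D) {R : ℤ} (hR : 0 ≤ R) (hs : Spread (2 * R) p D)
    {k l : Option ℕ} (hk : ok D k) (hl : ok D l) {e : ℤ} (he : e = 1 ∨ e = -1)
    {a n : FreeGroup ι} (ha : δ.Loc a R) (hn : δ.Loc n R)
    (h : a * δ.Wk p D k ^ e * a⁻¹ * n = δ.Wk p D l ^ e) : n = 1 := by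
  have hok : ∀ j < D, ok D (some j) := fun j hj _ e => by cases e; exact hj
  have hno : ok D none := fun _ e => by cases e
  have he0 : e ≠ 0 := by omega
  have hd := ha.1
  have hn0 : δ.dg n = 0 := by simpa using congrArg δ.dg h
  have hc : ∀ s l', R < |s| → δ.psi (cnt s l') (a * δ.Wk p D k ^ e * a⁻¹) 0 =
      δ.psi (cnt s l') (1 * δ.Wk p D l ^ e * 1⁻¹) 0 := by
    intro s l' hs'
    rw [one_mul, inv_one, mul_one, ← h, psi_mul (h := n), hn.eq_one (θ := cnt s l') fun q a hq =>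
      if_neg fun h1 => by have h2 := h1.1; simp at h2; subst h2; omega, mul_one]
  have hne : ∀ P : Prop, ∀ [Decidable P], (Multiplicative.ofAdd (1 : ℤ)) ^ e =
      (if P then Multiplicative.ofAdd (1 : ℤ) else 1) ^ e → P := by
    intro P _ h
    by_contra hP
    rw [if_neg hP] at h
    have := congrArg Multiplicative.toAdd h
    simp at this
    exact he0 this
  have hkl : k = l ∧ δ.dg a = 0 := by
    by_cases h1 : k = none
    · by_cases h2 : l = none
      · subst h1 h2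
        refine ⟨rfl, ?_⟩
        have h3 := hs (some 0) none (hok 0 hD) hno (by simp)
        simp only [PP, sub_zero] at h3
        have h4 := hc (δ.dg a + p 0) δ.y (by rw [abs_le] at hd; rw [lt_abs] at *; omega)
        rw [psi_conj _ _ _ (by simp), psi_conj _ _ _ (by simp), psi_zpow _ _ (by simp),
          psi_zpow _ _ (by simp)] at h4
        simp only [Wk, TT, inv_one, one_mul, mul_one, psi_WW, zero_add, dg_one] at h4
        have h5 : ∀ j < D, j ≠ 0 → 2 * R < |p j - p 0| := fun j hj h0 =>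
          hs (some j) (some 0) (hok j hj) (hok 0 hD) (by simpa using h0)
        simp only [cnt, δ.yc.symm, and_false, if_false, one_mul, and_true] at h4
        rw [pr_single 0 fun j hj h0 => if_neg ?_, pr_single 0 fun j hj h0 => if_neg ?_] at h4
        · simp only [hD, if_true] at h4
          have := hne _ h4
          omega
        · have := h5 j hj h0
          rw [abs_le] at hd; rw [lt_abs] at this; omega
        · have := h5 j hj h0
          rw [lt_abs] at this; omega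
      · have h3 := hs l none hl hno h2
        simp only [PP, sub_zero] at h3
        have h4 := hc (-PP p l) δ.c (by rw [abs_neg]; simp only [PP]; omega)
        rw [cnt_c, cnt_c, if_pos (c := δ.dg 1 - _ = _) (by simp), h1] at h4
        have := hne _ h4.symm
        simp only [PP] at this
        rw [abs_le] at hd; rw [lt_abs] at h3; omega
    · have h3 := hs k none hk hno h1
      have h3' : 2 * R < |PP p k| := by simpa only [PP, sub_zero] using h3
      have h4 := hc (δ.dg a - PP p k) δ.c (by rw [abs_le] at hd; rw [lt_abs] at *; omega)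
      rw [cnt_c, cnt_c, if_pos rfl] at h4
      have h5 := hne _ h4
      rw [dg_one] at h5
      have : k = l := by
        by_contra hkl
        have := hs k l hk hl hkl
        rw [abs_le] at hd; rw [lt_abs] at this; omega
      exact ⟨this, by rw [this] at h5; omega⟩
  obtain ⟨rfl, ha0⟩ := hkl
  obtain ⟨θ, h1, h2⟩ := δ.psi_Wk hD hR (fun k l hk hl hkl => lt_of_le_of_lt (by omega) (hs k l hk hl hkl))
    hk 1
  have := congrArg (fun g => δ.psi θ g 0) h
  simp only [psi_mul, psi_inv, dg_mul, dg_inv, dg_zpow, dg_Wk, ha0, psi_zpow _ _ (δ.dg_Wk p D k),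
    add_zero, mul_zero, neg_zero, sub_zero, h2, one_zpow, mul_one, mul_inv_cancel, one_mul] at this
  rwa [hn.eq_self hn0 (by simpa using h1)] at this

end Dat
end Crest.Agent.FG
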