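import Crest.Agent.FG.VN
import Crest.Agent.FG.Cmb
/-! Derivations of the group algebra of a free group and their flows. -/
set_option autoImplicit false
set_option linter.deprecated false
set_option linter.unusedSimpArgs false
set_option linter.unusedVariables false
set_option linter.unusedSectionVars false
set_option linter.style.haveILetI false
namespace Crest.Agent.FG
open scoped InnerProductSpace ComplexConjugate Nat
open Filter Topology Crest.Agent.Nk

section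
variable {G : Type} [Group G] [DecidableEq G] (V : VN G)

/-- span of the group elements in `A` -/
noncomputable def Sp (A : Set G) : Submodule ℂ V.C := Submodule.span ℂ (V.L '' A)

variable {V}

theorem mem_Sp {A : Set G} {g : G} (h : g ∈ A) : V.L g ∈ Sp V A := Submodule.subset_span ⟨g, h, rfl⟩

theorem Sp_ind {A : Set G} (p : V.C → Prop) (h0 : p 0) (hadd : ∀ x y, p x → p y → p (x + y))
    (hsm : ∀ (c : ℂ) x, p x → p (c • x)) (hg : ∀ g ∈ A, p (V.L g)) {x : V.C} (hx : x ∈ Sp V A) :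
    p x := by
  induction hx using Submodule.span_induction with
  | mem x hx => obtain ⟨g, h, rfl⟩ := hx; exact hg g h
  | zero => exact h0
  | add x y _ _ hx hy => exact hadd x y hx hy
  | smul c x _ hx => exact hsm c x hx

theorem Sp_lin {A : Set G} {E : Type} [AddCommGroup E] [Module ℂ E] (f : V.C →ₗ[ℂ] E)
    (W : Submodule ℂ E) (hg : ∀ g ∈ A, f (V.L g) ∈ W) {x : V.C} (hx : x ∈ Sp V A) : f x ∈ W :=
  Sp_ind (fun x => f x ∈ W) (by simp) (fun x y hx hy => by rw [map_add]; exact add_mem hx hy)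
    (fun c x hx => by rw [map_smul]; exact W.smul_mem c hx) hg hx

theorem Sp_mul {A B : Set G} {x : V.C} (hx : x ∈ Sp V A) (g h : G) (hB : ∀ k ∈ A, g * k * h ∈ B) :
    V.L g * x * V.L h ∈ Sp V B :=
  Sp_lin ((LinearMap.mulRight ℂ (V.L h)) ∘ₗ LinearMap.mulLeft ℂ (V.L g)) _
    (fun k hk => by simpa using mem_Sp (V := V) (hB k hk)) hx

theorem Sp_mono {A B : Set G} (h : A ⊆ B) : Sp V A ≤ Sp V B := Submodule.span_mono (Set.image_mono h)

theorem Sp_mul_mem {K : Subgroup G} {x y : V.C} (hx : x ∈ Sp V K) (hy : y ∈ Sp V K) :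
    x * y ∈ Sp V K :=
  Sp_lin (LinearMap.mulRight ℂ y) _ (fun g hg => by
    simpa using Sp_mul hy g 1 fun k hk => by simpa using mul_mem hg hk) hx

theorem Sp_star {K : Subgroup G} {x : V.C} (hx : x ∈ Sp V K) : star x ∈ Sp V K :=
  Sp_ind (fun x => star x ∈ Sp V K) (by simp) (fun x y hx hy => by rw [star_add]; exact add_mem hx hy)
    (fun c x hx => by rw [star_smul]; exact Submodule.smul_mem _ _ hx)
    (fun g hg => by rw [V.st]; exact mem_Sp (inv_mem hg)) hx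

theorem τ_Sp {A : Set G} {x : V.C} (hx : x ∈ Sp V A) {g : G} (h : g ∉ A) :
    V.t.τ (V.L g⁻¹ * x) = 0 :=
  Sp_lin (V.t.τ.toLinearMap ∘ₗ LinearMap.mulLeft ℂ (V.L g⁻¹)) ⊥ (fun k hk => by
    have : g⁻¹ * k ≠ 1 := fun e => h (by rwa [inv_mul_eq_one.1 e])
    simp [← map_mul, V.τL, this]) hx

theorem L_unitary (g : G) : V.L g ∈ unitary V.C := by
  rw [Unitary.mem_iff, V.st, ← map_mul, ← map_mul]; simp

theorem norm_L (g : G) : ‖V.L g‖ = 1 := by
  haveI := V.t.nontrivial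
  exact CStarRing.norm_of_mem_unitary (L_unitary g)

theorem L_inv_mul (g : G) : V.L g⁻¹ * V.L g = 1 := by rw [← map_mul]; simp
theorem L_mul_inv (g : G) : V.L g * V.L g⁻¹ = 1 := by rw [← map_mul]; simp

theorem orth_of {K : Type} [Group K] [DecidableEq K] {π : K → V.C}
    (h : ∀ k l, V.t.τ (star (π k) * π l) = if k = l then 1 else 0) :
    Orthonormal ℂ fun k => V.t.lam (π k) V.t.om :=
  orthonormal_iff_ite.2 fun k l => by rw [← V.t.τ_star_mul, h]

theorem τ_LL' (k l : G) : V.t.τ (star (V.L k) * V.L l) = if k = l then 1 else 0 := by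
  rw [V.st, ← map_mul, V.τL]; simp only [inv_mul_eq_one]

/-- the vector of an element -/
noncomputable def vec (V : VN G) : V.C →ₗ[ℂ] V.t.Y :=
  ((ContinuousLinearMap.apply ℂ V.t.Y V.t.om : _ →L[ℂ] _) : _ →ₗ[ℂ] _) ∘ₗ
    (V.t.lam : V.C →ₗ[ℂ] (V.t.Y →L[ℂ] V.t.Y))

theorem vec_def (a : V.C) : vec V a = V.t.lam a V.t.om := rfl
theorem norm_vec (a : V.C) : ‖vec V a‖ = V.t.n2 a := rfl
theorem inner_vec (a b : V.C) : ⟪vec V a, vec V b⟫_ℂ = V.t.τ (star a * b) := (V.t.τ_star_mul a b).symm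

theorem exists_lin (f : G → V.C) : ∃ d : V.C →ₗ[ℂ] V.C, ∀ g, d (V.L g) = f g := by
  have hli : LinearIndependent ℂ V.L :=
    LinearIndependent.of_comp (vec V) (orth_of (V := V) τ_LL').linearIndependent
  obtain ⟨d, hd⟩ := LinearMap.exists_extend (Finsupp.linearCombination ℂ f ∘ₗ hli.repr)
  refine ⟨d, fun g => ?_⟩
  have := LinearMap.congr_fun hd ⟨V.L g, Submodule.subset_span ⟨g, rfl⟩⟩
  simpa [hli.repr_eq_single g ⟨V.L g, Submodule.subset_span ⟨g, rfl⟩⟩ rfl] using this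

end

variable {ι : Type} [DecidableEq ι] {V : VN (FreeGroup ι)}

/-- derivations with prescribed values -/
structure IsDer (d : V.C →ₗ[ℂ] V.C) (v : ι → V.C) : Prop where
  of : ∀ a, d (V.L (.of a)) = v a * V.L (.of a)
  mul : ∀ g h, d (V.L (g * h)) = d (V.L g) * V.L h + V.L g * d (V.L h)

theorem exists_der (v : ι → V.C) : ∃ d, IsDer d v := by
  let u : ι → (TrivSqZeroExt V.C V.C)ˣ := fun a =>
    ⟨⟨V.L (.of a), v a * V.L (.of a)⟩, ⟨V.L (.of a)⁻¹, -(V.L (.of a)⁻¹ * v a)⟩,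
      by ext <;> simp [L_mul_inv, ← mul_assoc, mul_assoc (v a)],
      by ext <;> simp [L_inv_mul, mul_assoc]⟩
  let ψ : FreeGroup ι →* TrivSqZeroExt V.C V.C := (Units.coeHom _).comp (FreeGroup.lift u)
  have h1 : ∀ g, (ψ g).fst = V.L g := by
    have : (TrivSqZeroExt.fstHom ℂ V.C V.C : TrivSqZeroExt V.C V.C →* V.C).comp ψ = V.L := by
      refine MonoidHom.ext fun g => fg_ind (fun g => (ψ g).fst = V.L g) (by simp) (by simp [ψ, u])
        (fun g h => ?_) (fun g h h1 h2 => by simp [h1, h2]) g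
      have h2 : (ψ g⁻¹).fst * V.L g = 1 := by rw [← h, ← TrivSqZeroExt.fst_mul, ← map_mul]; simp
      rw [← mul_one (ψ g⁻¹).fst, ← L_mul_inv g, ← mul_assoc, h2, one_mul]
    exact DFunLike.congr_fun this
  obtain ⟨d, hd⟩ := exists_lin (V := V) fun g => (ψ g).snd
  exact ⟨d, fun a => by simp [hd, ψ, u], fun g h => by
    rw [hd, hd, hd, map_mul ψ, TrivSqZeroExt.snd_mul, h1, h1, smul_eq_mul, op_smul_eq_mul, add_comm]⟩

namespace IsDer
variable {d : V.C →ₗ[ℂ] V.C} {v : ι → V.C} (h : IsDer d v)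
include h

theorem one : d 1 = 0 := by
  have := h.mul 1 1
  simpa using this

theorem inv (g : FreeGroup ι) : d (V.L g⁻¹) = -(V.L g⁻¹ * d (V.L g) * V.L g⁻¹) := by
  have := h.mul g⁻¹ g
  rw [inv_mul_cancel, map_one, h.one] at this
  have h2 := congrArg (· * V.L g⁻¹) this
  simp only [zero_mul, add_mul, mul_assoc, L_mul_inv, mul_one] at h2
  rw [mul_assoc]; exact eq_neg_of_add_eq_zero_left h2.symm

theorem lin {d' : V.C →ₗ[ℂ] V.C} {v' : ι → V.C} (h' : IsDer d' v') (a b : ℂ) :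
    IsDer (a • d + b • d') (fun l => a • v l + b • v' l) :=
  ⟨fun l => by simp [h.of, h'.of, add_mul], fun g k => by
    simp only [LinearMap.add_apply, LinearMap.smul_apply, h.mul, h'.mul, add_mul, mul_add,
      smul_mul_assoc, mul_smul_comm, smul_add]; abel⟩

theorem star_L {d' : V.C →ₗ[ℂ] V.C} {v' : ι → V.C} (h' : IsDer d' v') (e : ∀ a, star (v' a) = -v a)
    (g : FreeGroup ι) : star (d' (V.L g)) = d (V.L g⁻¹) := by
  refine fg_ind (fun g => star (d' (V.L g)) = d (V.L g⁻¹)) (by simp [h.one, h'.one]) (fun a => ?_)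
    (fun g hg => ?_) (fun g k hg hk => ?_) g
  · rw [h'.of, h.inv, h.of, star_mul, e, V.st]; simp [mul_assoc, L_mul_inv]
  · rw [h'.inv, star_neg, star_mul, star_mul, hg, V.st, inv_inv, h.inv]
    simp [mul_assoc, L_inv_mul, ← mul_assoc (V.L g), L_mul_inv]
  · rw [h'.mul, mul_inv_rev, h.mul, star_add, star_mul, star_mul, hg, hk, V.st, V.st, add_comm]

theorem star_eq {d' : V.C →ₗ[ℂ] V.C} {v' : ι → V.C} (h' : IsDer d' v') (e : ∀ a, star (v' a) = -v a)
    {A : Set (FreeGroup ι)} {x : V.C} (hx : x ∈ Sp V A) : star (d' x) = d (star x) :=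
  Sp_ind (fun x => star (d' x) = d (star x)) (by simp) (fun x y hx hy => by simp [hx, hy])
    (fun c x hx => by simp [hx]) (fun g _ => by rw [V.st]; exact h.star_L h' e g) hx

theorem leib {A B : Set (FreeGroup ι)} {x y : V.C} (hx : x ∈ Sp V A) (hy : y ∈ Sp V B) :
    d (x * y) = d x * y + x * d y := by
  refine Sp_ind (fun x => d (x * y) = d x * y + x * d y) (by simp)
    (fun a b ha hb => by simp only [add_mul, map_add, ha, hb]; abel)
    (fun c a ha => by simp only [smul_mul_assoc, map_smul, ha, smul_add]) (fun g _ => ?_) hx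
  exact Sp_ind (fun y => d (V.L g * y) = d (V.L g) * y + V.L g * d y) (by simp)
    (fun a b ha hb => by simp only [mul_add, map_add, ha, hb]; abel)
    (fun c a ha => by simp only [mul_smul_comm, map_smul, ha, smul_add])
    (fun k _ => by rw [← map_mul, h.mul]) hy

theorem τ_conj (g k : FreeGroup ι) : V.t.τ (d (V.L (k * g * k⁻¹))) = V.t.τ (d (V.L g)) := by
  rw [h.mul, h.mul, h.inv, map_mul V.L, add_mul, map_add, map_add, mul_neg, map_neg,
    V.t.τ_comm (V.L k * d (V.L g)), ← mul_assoc _ (V.L k), L_inv_mul, one_mul,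
    V.t.τ_comm (d (V.L k) * V.L g)]
  have e : V.t.τ (V.L k * V.L g * (V.L k⁻¹ * d (V.L k) * V.L k⁻¹)) =
      V.t.τ (V.L k⁻¹ * (d (V.L k) * V.L g)) := by
    rw [← mul_assoc, V.t.τ_comm _ (V.L k⁻¹), mul_assoc (V.L k), ← mul_assoc (V.L k⁻¹), L_inv_mul,
      one_mul, V.t.τ_comm (V.L g), mul_assoc]
  rw [e]; ring

end IsDer

theorem exists_supp (g : FreeGroup ι) : ∃ S : Finset (FreeGroup ι), ∀ (V : VN (FreeGroup ι))
    (d : V.C →ₗ[ℂ] V.C) (v : ι → V.C) (W : Set (FreeGroup ι)), IsDer d v → (∀ a, v a ∈ Sp V W) →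
    d (V.L g) ∈ Sp V {k | ∃ a ∈ S, ∃ w ∈ W, k = a * w * a⁻¹ * g} := by
  refine fg_ind (fun g => ∃ S : Finset (FreeGroup ι), ∀ (V : VN (FreeGroup ι))
    (d : V.C →ₗ[ℂ] V.C) (v : ι → V.C) (W : Set (FreeGroup ι)), IsDer d v → (∀ a, v a ∈ Sp V W) →
    d (V.L g) ∈ Sp V {k | ∃ a ∈ S, ∃ w ∈ W, k = a * w * a⁻¹ * g})
    ⟨∅, fun V d v W h _ => by simp [h.one]⟩ (fun a => ⟨{1}, fun V d v W h hv => ?_⟩) ?_ ?_ g
  · simpa [h.of] using Sp_mul (hv a) 1 (.of a)
      (B := {k | ∃ b ∈ ({1} : Finset _), ∃ w ∈ W, k = b * w * b⁻¹ * .of a})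
      fun k hk => ⟨1, by simp, k, hk, by simp⟩
  · rintro g ⟨S, hS⟩
    refine ⟨S.image (g⁻¹ * ·), fun V d v W h hv => ?_⟩
    rw [h.inv]
    refine neg_mem (Sp_mul (hS V d v W h hv) _ _ ?_)
    rintro _ ⟨a, ha, w, hw, rfl⟩
    exact ⟨_, Finset.mem_image_of_mem _ ha, w, hw, by group⟩
  · rintro g k ⟨S, hS⟩ ⟨T, hT⟩
    refine ⟨S ∪ T.image (g * ·), fun V d v W h hv => ?_⟩
    rw [h.mul]
    refine add_mem ?_ ?_
    · rw [← one_mul (d _), ← map_one V.L]
      refine Sp_mul (hS V d v W h hv) _ _ ?_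
      rintro _ ⟨a, ha, w, hw, rfl⟩
      exact ⟨_, Finset.mem_union_left _ ha, w, hw, by group⟩
    · rw [← mul_one (_ * d _), ← map_one V.L]
      refine Sp_mul (hT V d v W h hv) _ _ ?_
      rintro _ ⟨a, ha, w, hw, rfl⟩
      exact ⟨_, Finset.mem_union_right _ (Finset.mem_image_of_mem _ ha), w, hw, by group⟩

theorem IsDer.mem {d : V.C →ₗ[ℂ] V.C} {v : ι → V.C} (h : IsDer d v) (N : Subgroup (FreeGroup ι))
    [hN : N.Normal] (hv : ∀ a, v a ∈ Sp V N) {K : Subgroup (FreeGroup ι)} (hK : N ≤ K) {x : V.C}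
    (hx : x ∈ Sp V K) : d x ∈ Sp V K := by
  refine Sp_lin d _ (fun g hg => ?_) hx
  obtain ⟨S, hS⟩ := exists_supp g
  refine Sp_mono ?_ (hS V d v N h hv)
  rintro _ ⟨a, -, w, hw, rfl⟩
  exact mul_mem (hK (hN.conj_mem w hw a)) hg

/-- number of moving letters -/
inductive Len (st : ι → Prop) : ℕ → FreeGroup ι → Prop
  | one : Len st 0 1
  | dyn (a : ι) : Len st 1 (.of a)
  | dyn' (a : ι) : Len st 1 (.of a)⁻¹
  | sta (a : ι) : st a → Len st 0 (.of a)
  | sta' (a : ι) : st a → Len st 0 (.of a)⁻¹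
  | mul {a b : ℕ} {g h : FreeGroup ι} : Len st a g → Len st b h → Len st (a + b) (g * h)
  | succ {a : ℕ} {g : FreeGroup ι} : Len st a g → Len st (a + 1) g

theorem Len.inv {st : ι → Prop} {a : ℕ} {g : FreeGroup ι} (h : Len st a g) : Len st a g⁻¹ := by
  induction h with
  | one => simpa using Len.one
  | dyn a => exact .dyn' a
  | dyn' a => simpa using Len.dyn a
  | sta a h => exact .sta' a h
  | sta' a h => simpa using Len.sta a h
  | mul _ _ h1 h2 => rw [mul_inv_rev, add_comm]; exact h2.mul h1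
  | succ _ h => exact h.succ

theorem Len.mono {st : ι → Prop} {a b : ℕ} {g : FreeGroup ι} (h : Len st a g) (hab : a ≤ b) :
    Len st b g := by
  induction b, hab using Nat.le_induction with
  | base => exact h
  | succ _ _ ih => exact ih.succ

theorem exists_len (st : ι → Prop) (g : FreeGroup ι) : ∃ a, Len st a g :=
  fg_ind (fun g => ∃ a, Len st a g) ⟨0, .one⟩ (fun a => ⟨1, .dyn a⟩)
    (fun _ ⟨a, h⟩ => ⟨a, h.inv⟩) (fun _ _ ⟨_, h⟩ ⟨_, h'⟩ => ⟨_, h.mul h'⟩) g

/-- `x` is an absolutely convex combination of size `A` of words of length `l` -/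
def Bd (V : VN (FreeGroup ι)) (st : ι → Prop) (l : ℕ) (A : ℝ) (x : V.C) : Prop :=
  ∀ (ψ : V.C →ₗ[ℂ] V.C) (B : ℝ), (∀ w, Len st l w → ‖ψ (V.L w)‖ ≤ B) → ‖ψ x‖ ≤ A * B

theorem Bd.mul {st : ι → Prop} {l a b m : ℕ} {A : ℝ} {x : V.C} (hx : Bd V st l A x)
    {g h : FreeGroup ι} (hg : Len st a g) (hh : Len st b h) (hm : a + l + b ≤ m) :
    Bd V st m A (V.L g * x * V.L h) := fun ψ B hB =>
  hx (ψ ∘ₗ (LinearMap.mulRight ℂ (V.L h)) ∘ₗ LinearMap.mulLeft ℂ (V.L g)) B fun w hw => by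
    simpa using hB _ (((hg.mul hw).mul hh).mono hm)

theorem IsDer.bd {d : V.C →ₗ[ℂ] V.C} {v : ι → V.C} (h : IsDer d v) {st : ι → Prop} {L : ℕ} {κ : ℝ}
    (hκ : 0 ≤ κ) (h0 : ∀ a, st a → v a = 0) (hv : ∀ a, Bd V st L κ (v a)) {l : ℕ} {g : FreeGroup ι}
    (hg : Len st l g) : Bd V st (l + L) (κ * l) (d (V.L g)) := by
  induction hg with
  | one => intro ψ B _; simp [h.one]
  | dyn a => simpa [h.of] using (hv a).mul .one (.dyn a) (m := 1 + L) (by omega)
  | dyn' a =>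
    intro ψ B hB
    simpa [h.inv, h.of, mul_assoc, L_mul_inv] using (hv a).mul (.dyn' a) .one (m := 1 + L) (by omega) ψ B hB
  | sta a ha => intro ψ B _; simp [h.of, h0 a ha]
  | sta' a ha => intro ψ B _; simp [h.inv, h.of, h0 a ha]
  | @mul a b g k hg hk h1 h2 =>
    intro ψ B hB
    have e1 := h1.mul .one hk (m := a + b + L) (by omega) ψ B hB
    have e2 := h2.mul hg .one (m := a + b + L) (by omega) ψ B hB
    simp only [map_one, one_mul, mul_one] at e1 e2
    rw [h.mul, map_add]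
    refine (norm_add_le _ _).trans ?_
    push_cast; linarith
  | @succ a g hg h1 =>
    intro ψ B hB
    have e1 := h1 ψ B fun w hw => hB w (hw.mono (by omega))
    have := (norm_nonneg _).trans (hB 1 (Len.one.mono (by omega)))
    push_cast; nlinarith

theorem IsDer.pow_bd {d : V.C →ₗ[ℂ] V.C} {v : ι → V.C} (h : IsDer d v) {st : ι → Prop} {L : ℕ}
    {κ : ℝ} (hκ : 0 ≤ κ) (h0 : ∀ a, st a → v a = 0) (hv : ∀ a, Bd V st L κ (v a)) (k m : ℕ)
    {g : FreeGroup ι} (hg : Len st (m * L) g) :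
    ‖(d ^ k) (V.L g)‖ ≤ (κ * L) ^ k * m.ascFactorial k := by
  induction k generalizing m g with
  | zero => simp [norm_L]
  | succ k ih =>
    rw [pow_succ, Module.End.mul_apply]
    refine (h.bd hκ h0 hv hg (d ^ k) _ fun w hw => ih (m + 1) (by rwa [add_one_mul])).trans_eq ?_
    have := Nat.succ_ascFactorial m k
    rw [Nat.ascFactorial_succ, ← this]
    push_cast; ring

theorem IsDer.pow_bd' {d : V.C →ₗ[ℂ] V.C} {v : ι → V.C} (h : IsDer d v) {st : ι → Prop} {L : ℕ}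
    {κ : ℝ} (hκ : 0 ≤ κ) (hL : 0 < L) (h0 : ∀ a, st a → v a = 0) (hv : ∀ a, Bd V st L κ (v a))
    (g : FreeGroup ι) : ∃ A : ℝ, ∀ k, ‖(d ^ k) (V.L g)‖ ≤ A * k ! * (2 * κ * L) ^ k := by
  obtain ⟨m, hm⟩ := exists_len st g
  refine ⟨2 ^ m, fun k => (h.pow_bd hκ h0 hv k (m + 1) (hm.mono (by nlinarith))).trans ?_⟩
  rw [Nat.ascFactorial_eq_factorial_mul_choose]
  have : ((m + k).choose k : ℝ) ≤ 2 ^ (m + k) := by exact_mod_cast Nat.choose_le_two_pow _ _
  push_cast
  calc (κ * L) ^ k * (k ! * ((m + k).choose k : ℝ)) ≤ (κ * L) ^ k * (k ! * 2 ^ (m + k)) := by gcongr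
    _ = _ := by ring

theorem exists_flow {d : V.C →ₗ[ℂ] V.C} {v : ι → V.C} (h : IsDer d v)
    (hv : ∀ a, v a ∈ Sp V (⊤ : Subgroup (FreeGroup ι))) (hst : ∀ a, star (v a) = -v a)
    (hτ : ∀ g, V.t.τ (d (V.L g)) = 0) {r : ℝ} (hr : 0 ≤ r)
    (hb : ∀ g, ∃ A : ℝ, ∀ k, ‖(d ^ k) (V.L g)‖ ≤ A * k ! * r ^ k) {t : ℝ} (ht : |t| * r < 1) :
    ∃ θ : V.C ≃⋆ₐ[ℂ] V.C, (∀ a, V.t.τ (θ a) = V.t.τ a) ∧
      ∀ g, HasSum (fun k => ((t ^ k / k ! : ℝ) : ℂ) • (d ^ k) (V.L g)) (θ (V.L g)) := by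
  set 𝒜 := Sp V (⊤ : Subgroup (FreeGroup ι))
  have hL : ∀ g, V.L g ∈ 𝒜 := fun g => mem_Sp trivial
  have hm : ∀ k, ∀ x ∈ 𝒜, (d ^ k) x ∈ 𝒜 := by
    intro k x hx
    induction k with
    | zero => exact hx
    | succ k ih => rw [pow_succ']; exact h.mem ⊤ hv le_rfl ih
  have hτ' : ∀ x ∈ 𝒜, V.t.τ (d x) = 0 := fun x hx =>
    Sp_lin (V.t.τ.toLinearMap ∘ₗ d) ⊥ (fun g _ => hτ g) hx
  have hs : ∀ k, ∀ x ∈ 𝒜, star ((d ^ k) x) = (d ^ k) (star x) := by
    intro k x hx
    induction k with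
    | zero => rfl
    | succ k ih => rw [pow_succ', Module.End.mul_apply, h.star_eq h hst (hm k x hx), ih]; rfl
  have hle : ∀ n, ∀ x ∈ 𝒜, ∀ y ∈ 𝒜, (d ^ n) (x * y) =
      ∑ ij ∈ Finset.HasAntidiagonal.antidiagonal n, n.choose ij.1 • ((d ^ ij.1) x * (d ^ ij.2) y) := by
    intro n x hx y hy
    induction n with
    | zero => simp
    | succ n ih =>
      rw [pow_succ', Module.End.mul_apply, ih, map_sum,
        Finset.sum_antidiagonal_choose_succ_nsmul (fun i j => (d ^ i) x * (d ^ j) y),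
        ← Finset.sum_add_distrib]
      refine Finset.sum_congr rfl fun ij hij => ?_
      rw [map_nsmul, h.leib (hm _ x hx) (hm _ y hy), pow_succ', pow_succ', smul_add, add_comm,
        ← Nat.choose_symm_of_eq_add (Finset.HasAntidiagonal.mem_antidiagonal.1 hij).symm]
      rfl
  have hadj : ∀ k, ∀ x ∈ 𝒜, ∀ y ∈ 𝒜, V.t.τ (x * (d ^ k) y) = (-1) ^ k * V.t.τ ((d ^ k) x * y) := by
    intro k
    induction k with
    | zero => simp
    | succ k ih =>
      intro x hx y hy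
      have := hτ' _ (Sp_mul_mem hx (hm k y hy))
      rw [h.leib hx (hm k y hy), map_add, ih _ (h.mem ⊤ hv le_rfl hx) y hy] at this
      have e1 : (d ^ (k + 1)) y = d ((d ^ k) y) := by rw [pow_succ']; rfl
      have e2 : (d ^ (k + 1)) x = (d ^ k) (d x) := by rw [pow_succ]; rfl
      rw [e1, e2]
      linear_combination this
  let E : ℝ → FreeGroup ι → ℕ → V.C := fun t g k => ((t ^ k / k ! : ℝ) : ℂ) • (d ^ k) (V.L g)
  have hsum : ∀ t : ℝ, |t| * r < 1 → ∀ g, Summable fun k => ‖E t g k‖ := by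
    intro t ht g
    obtain ⟨A, hA⟩ := hb g
    refine .of_nonneg_of_le (fun _ => norm_nonneg _) (fun k => ?_)
      ((summable_geometric_of_lt_one (by positivity) ht).mul_left A)
    rw [norm_smul, Complex.norm_real, norm_div, norm_pow, Real.norm_natCast, Real.norm_eq_abs]
    refine (mul_le_mul_of_nonneg_left (hA k) (by positivity)).trans_eq ?_
    have : (k ! : ℝ) ≠ 0 := by positivity
    field_simp; ring
  have hβ : ∀ t : ℝ, |t| * r < 1 → ∃ β : FreeGroup ι →* V.C, (∀ g, HasSum (E t g) (β g)) ∧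
      (∀ g, star (β g) = β g⁻¹) ∧ ∀ g, V.t.τ (β g) = if g = 1 then 1 else 0 := by
    intro t ht
    have h1 : ∀ g, HasSum (E t g) (∑' k, E t g k) := fun g => (hsum t ht g).of_norm.hasSum
    refine ⟨⟨⟨fun g => ∑' k, E t g k, ?_⟩, fun g k => ?_⟩, h1, fun g => ?_, fun g => ?_⟩
    · rw [tsum_eq_single 0]
      · simp [E]
      · intro k hk
        obtain ⟨k, rfl⟩ := Nat.exists_eq_succ_of_ne_zero hk
        simp [E, pow_succ, h.one]
    · rw [tsum_mul_tsum_eq_tsum_sum_antidiagonal_of_summable_norm (hsum t ht g) (hsum t ht k)]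
      refine tsum_congr fun n => ?_
      simp only [E, map_mul V.L, hle n _ (hL g) _ (hL k), Finset.smul_sum, smul_mul_smul_comm]
      refine Finset.sum_congr rfl fun ij hij => ?_
      rw [← Nat.cast_smul_eq_nsmul ℂ, smul_smul, ← Finset.HasAntidiagonal.mem_antidiagonal.1 hij]
      congr 1
      have := Nat.add_choose_mul_factorial_mul_factorial ij.2 ij.1
      rw [add_comm ij.2] at this
      rw [← this]
      have h2 : (((ij.1 + ij.2).choose ij.1 : ℕ) : ℂ) ≠ 0 := by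
        exact_mod_cast (Nat.choose_pos (by omega)).ne'
      have h3 : ((ij.1 ! : ℕ) : ℂ) ≠ 0 := by exact_mod_cast (Nat.factorial_pos _).ne'
      have h4 : ((ij.2 ! : ℕ) : ℂ) ≠ 0 := by exact_mod_cast (Nat.factorial_pos _).ne'
      push_cast; field_simp; ring
    · refine (h1 g).star.unique ?_
      have e : (fun k => star (E t g k)) = E t g⁻¹ := funext fun k => by
        simp only [E, star_smul, hs k _ (hL g), V.st, Complex.star_def, Complex.conj_ofReal]
      rw [e]; exact h1 g⁻¹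
    · rw [← V.τL]
      refine ((h1 g).mapL V.t.τ).unique ?_
      convert hasSum_single 0 _ using 1
      · simp [E]
      · intro k hk
        obtain ⟨k, rfl⟩ := Nat.exists_eq_succ_of_ne_zero hk
        simp [E, pow_succ', hτ' _ (hm k _ (hL g))]
  obtain ⟨β, b1, b2, b3⟩ := hβ t ht
  obtain ⟨γ, c1, c2, c3⟩ := hβ (-t) (by rwa [abs_neg])
  have hdual : ∀ g k, V.t.τ (star (γ k) * V.L g) = V.t.τ (star (V.L k) * β g) := by
    intro g k
    refine ((((c1 k).star).mul_right (V.L g)).mapL V.t.τ).unique ?_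
    convert ((b1 g).mul_left (star (V.L k))).mapL V.t.τ using 2 with n
    simp only [E, star_smul, Complex.star_def, Complex.conj_ofReal, smul_mul_assoc, mul_smul_comm,
      map_smul, hs n _ (hL k), hadj n _ (Sp_star (hL k)) _ (hL g), smul_eq_mul]
    rw [neg_pow]; push_cast; ring
  have hgen : Gen V.t β := by
    rw [gen_iff, Submodule.dense_iff_topologicalClosure_eq_top,
      Submodule.topologicalClosure_eq_top_iff, Submodule.eq_bot_iff]
    intro ξ hξ
    have hd := (gen_iff _ _).1 V.gen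
    obtain ⟨U, hU⟩ := exists_unit _ (orth_of (V := V) τ_LL') hd
    have ho : Orthonormal ℂ fun k => V.t.lam (γ k) V.t.om := orth_of fun k l => by
      rw [c2, ← map_mul, c3]; simp only [inv_mul_eq_one]
    let J := ho.orthogonalFamily.linearIsometry
    have hJ : ∀ k, J (lp.single 2 k 1) = V.t.lam (γ k) V.t.om := fun k => by
      simp [J, OrthogonalFamily.linearIsometry_apply_single]
    have h1 : ∀ g, ⟪V.t.lam (V.L g) V.t.om, J (U.symm ξ)⟫_ℂ = 0 := by
      intro g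
      have : (innerSL ℂ (V.t.lam (V.L g) V.t.om)) ∘L J.toContinuousLinearMap =
          (innerSL ℂ (V.t.lam (β g) V.t.om)) ∘L (U : _ →L[ℂ] _) := ext_dl fun k => by
        change ⟪_, J (lp.single 2 k 1)⟫_ℂ = ⟪_, U (lp.single 2 k 1)⟫_ℂ
        rw [hJ, hU, ← inner_conj_symm, ← V.t.τ_star_mul, hdual, V.t.τ_star_mul, inner_conj_symm]
      have h2 : ⟪_, J (U.symm ξ)⟫_ℂ = ⟪_, U (U.symm ξ)⟫_ℂ :=
        congrArg (fun T : OpAlg.ltwo _ →L[ℂ] ℂ => T (U.symm ξ)) this
      rw [h2, U.apply_symm_apply]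
      exact hξ _ (Submodule.subset_span ⟨g, rfl⟩)
    have h2 : J (U.symm ξ) = 0 := by
      have h3 := Submodule.topologicalClosure_eq_top_iff.1
        (Submodule.dense_iff_topologicalClosure_eq_top.1 hd)
      refine (Submodule.eq_bot_iff _).1 h3 _ fun η hη => ?_
      induction hη using Submodule.span_induction with
      | mem _ h => obtain ⟨g, rfl⟩ := h; exact h1 g
      | zero => simp
      | add a b _ _ ha hb => rw [inner_add_left, ha, hb, add_zero]
      | smul c a _ ha => rw [inner_smul_left, ha, mul_zero]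
    have h4 : U.symm ξ = 0 := J.injective (by rw [h2, map_zero])
    simpa using h4
  obtain ⟨θ, h1, h2⟩ := V.aut β b2 b3 hgen
  exact ⟨θ, h2, fun g => by rw [h1]; exact b1 g⟩

end Crest.Agent.FG
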