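import Crest.Agent.FG.Mix
/-! The specific derivations attached to a cyclic word. -/
set_option autoImplicit false
set_option linter.deprecated false
set_option linter.unusedSimpArgs false
set_option linter.unusedVariables false
set_option linter.unusedSectionVars false
set_option linter.style.haveILetI false
namespace Crest.Agent.FG
open scoped InnerProductSpace ComplexConjugate Nat
open Filter Topology Crest.Agent.Nk Complex

variable {ι : Type} [DecidableEq ι] (V : VN (FreeGroup ι)) (δ : Dat ι)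

/-- values on the letters -/
noncomputable def vv (p : ℕ → ℤ) (D : ℕ) (e : ℤ) (a : ι) : V.C :=
  if a = δ.c then I • V.L (δ.WW p D ^ e) else
    if a = δ.y then (-I / D) • ∑ k ∈ Finset.range D, V.L (δ.Wk p D (some k) ^ e) else 0

/-- the derivations -/
noncomputable def dd (p : ℕ → ℤ) (D : ℕ) (e : ℤ) : V.C →ₗ[ℂ] V.C :=
  (exists_der (vv V δ p D e)).choose

theorem dd_der (p : ℕ → ℤ) (D : ℕ) (e : ℤ) : IsDer (dd V δ p D e) (vv V δ p D e) :=
  (exists_der _).choose_spec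

theorem vv_c (p : ℕ → ℤ) (D : ℕ) (e : ℤ) : vv V δ p D e δ.c = I • V.L (δ.WW p D ^ e) := if_pos rfl

theorem vv_y (p : ℕ → ℤ) (D : ℕ) (e : ℤ) : vv V δ p D e δ.y =
    (-I / D) • ∑ k ∈ Finset.range D, V.L (δ.Wk p D (some k) ^ e) := by
  rw [vv, if_neg δ.yc, if_pos rfl]

theorem vv_st (p : ℕ → ℤ) (D : ℕ) (e : ℤ) {a : ι} (h : a ≠ δ.y ∧ a ≠ δ.c) : vv V δ p D e a = 0 := by
  rw [vv, if_neg h.2, if_neg h.1]

theorem ok_none (D : ℕ) : Dat.ok D none := fun _ e => by cases e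
theorem ok_some {D k : ℕ} (h : k < D) : Dat.ok D (some k) := fun _ e => by cases e; exact h

theorem Wk_none (p : ℕ → ℤ) (D : ℕ) : δ.Wk p D none = δ.WW p D := by simp [Dat.Wk, Dat.TT]

theorem vv_mem (p : ℕ → ℤ) (D : ℕ) (e : ℤ) (a : ι) :
    vv V δ p D e a ∈ Sp V {w | ∃ k, Dat.ok D k ∧ w = δ.Wk p D k ^ e} := by
  unfold vv
  split_ifs
  · exact Submodule.smul_mem _ _ (mem_Sp ⟨none, ok_none D, by rw [Wk_none]⟩)
  · exact Submodule.smul_mem _ _ (sum_mem fun k hk => mem_Sp ⟨some k, ok_some (by simpa using hk), rfl⟩)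
  · exact zero_mem _

theorem vv_ker (p : ℕ → ℤ) (D : ℕ) (e : ℤ) (a : ι) : vv V δ p D e a ∈ Sp V δ.deg.ker :=
  Sp_mono (by rintro _ ⟨k, -, rfl⟩; rw [mem_ker]; simp) (vv_mem V δ p D e a)

theorem star_vv (p : ℕ → ℤ) (D : ℕ) (e : ℤ) (a : ι) :
    star (vv V δ p D e a) = -vv V δ p D (-e) a := by
  unfold vv
  split_ifs
  · simp [V.st, -map_zpow]
  · simp [V.st, -map_zpow, star_sum, neg_div]
  · simp

theorem dd_x (p : ℕ → ℤ) (D : ℕ) (e n : ℤ) : dd V δ p D e (V.L (.of δ.x ^ n)) = 0 := by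
  have h := dd_der V δ p D e
  have h0 : dd V δ p D e (V.L (.of δ.x)) = 0 := by
    rw [h.of, vv_st V δ p D e ⟨δ.xy.symm, δ.xc.symm⟩, zero_mul]
  induction n using Int.induction_on with
  | zero => simp [h.one]
  | succ n ih => rw [zpow_add_one, h.mul, ih, h0]; simp
  | pred n ih => rw [zpow_sub_one, h.mul, ih, h.inv, h0]; simp

theorem dd_pre (p : ℕ → ℤ) (D : ℕ) (e : ℤ) (k : ℕ) :
    dd V δ p D e (V.L (δ.WW p k)) = (vv V δ p D e δ.c + ∑ j ∈ Finset.range k,
      V.L (δ.TT p (some j)) * vv V δ p D e δ.y * V.L (δ.TT p (some j))⁻¹) * V.L (δ.WW p k) := by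
  have h := dd_der V δ p D e
  induction k with
  | zero => simp [Dat.WW, Dat.wd, pr, h.of]
  | succ k ih =>
    have e1 : δ.WW p (k + 1) = δ.WW p k * (.of δ.x ^ p k * .of δ.y * .of δ.x ^ (-p k)) := by
      simp only [Dat.WW, Dat.wd, pr, Dat.sh, mul_assoc]
    have e2 : δ.TT p (some k) = δ.WW p k * .of δ.x ^ p k := rfl
    have e3 : (δ.TT p (some k))⁻¹ * δ.WW p (k + 1) = .of δ.y * .of δ.x ^ (-p k) := by
      rw [e1, e2]; group
    rw [Finset.sum_range_succ, ← add_assoc, add_mul _ _ (V.L (δ.WW p (k + 1))),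
      mul_assoc _ (V.L _⁻¹), ← map_mul V.L, e3, e2, e1, h.mul, ih, h.mul, h.mul, dd_x, dd_x, h.of]
    simp only [map_mul, mul_assoc, zero_mul, mul_zero, zero_add, add_zero]

variable {δ} in
theorem τ_dd {p : ℕ → ℤ} {D : ℕ} (hD : 0 < D) (hs : Dat.Spread 0 p D) {e : ℤ} (he : e = 1 ∨ e = -1)
    (g : FreeGroup ι) : V.t.τ (dd V δ p D e (V.L g)) = 0 := by
  have h := dd_der V δ p D e
  by_contra hne
  obtain ⟨S, hS⟩ := exists_supp g
  have h1 := hS V _ _ _ h (vv_mem V δ p D e)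
  have h2 : (1 : FreeGroup ι) ∈ _ := by_contra fun h3 => hne (by simpa using τ_Sp h1 h3)
  obtain ⟨a, -, _, ⟨k, -, rfl⟩, h3⟩ := h2
  have h4 : g = (a * (δ.TT p k)⁻¹) * δ.WW p D ^ (-e) * (a * (δ.TT p k)⁻¹)⁻¹ := by
    have := conj_zpow (a := (δ.TT p k)⁻¹) (b := δ.WW p D) (i := e)
    rw [inv_inv] at this
    rw [eq_inv_of_mul_eq_one_right h3.symm, Dat.Wk, this]; group
  rw [h4, h.τ_conj] at hne
  obtain ⟨η, hη, h5⟩ : ∃ η, dd V δ p D e (V.L (δ.WW p D)) = η * V.L (δ.WW p D) ∧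
      V.t.τ (V.L (δ.WW p D ^ e)⁻¹ * η) = 0 := by
    refine ⟨_, dd_pre V δ p D e D, ?_⟩
    rw [mul_add, map_add, vv_c, mul_smul_comm, L_inv_mul, map_smul, V.t.τ_one, Finset.mul_sum,
      map_sum, Finset.sum_congr rfl (g := fun _ => -I / D) fun j hj => ?_]
    · have : (D : ℂ) ≠ 0 := by exact_mod_cast hD.ne'
      simp; field_simp; simp
    · simp only [vv_y, mul_smul_comm, smul_mul_assoc, map_smul, Finset.mul_sum, Finset.sum_mul,
        map_sum, ← map_mul, V.τL, inv_mul_eq_one]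
      rw [Finset.sum_eq_single j (fun k hk hkj => if_neg fun h6 => hkj ?_) (fun h => absurd hj h),
        if_pos]
      · simp
      · have := conj_zpow (a := (δ.TT p (some j))⁻¹) (b := δ.WW p D) (i := e)
        rw [inv_inv] at this
        rw [Dat.Wk, this]; group
      · simpa using δ.off_diag hs (ok_some (by simpa using hk)) (ok_some (by simpa using hj))
          (by omega) h6.symm
  refine hne ?_
  rcases he with rfl | rfl
  · rw [zpow_neg, zpow_one, h.inv, hη, mul_assoc, mul_assoc, L_mul_inv, mul_one, map_neg]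
    simpa using h5
  · rw [neg_neg, zpow_one, hη, V.t.τ_comm]
    simpa using h5

variable {δ} in
theorem τ_dd' {p : ℕ → ℤ} {D : ℕ} (hD : 0 < D) (hs : Dat.Spread 0 p D) {e : ℤ} (he : e = 1 ∨ e = -1)
    {A : Set (FreeGroup ι)} {x : V.C} (hx : x ∈ Sp V A) : V.t.τ (dd V δ p D e x) = 0 :=
  Sp_lin (V.t.τ.toLinearMap ∘ₗ dd V δ p D e) ⊥ (fun g _ => τ_dd V hD hs he g) hx

theorem dd_mem (p : ℕ → ℤ) (D : ℕ) (e : ℤ) {x : V.C} (hx : x ∈ Sp V (⊤ : Subgroup (FreeGroup ι))) :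
    dd V δ p D e x ∈ Sp V (⊤ : Subgroup (FreeGroup ι)) :=
  (dd_der V δ p D e).mem δ.deg.ker (vv_ker V δ p D e) le_top hx

variable {δ} in
theorem dd_adj {p : ℕ → ℤ} {D : ℕ} (hD : 0 < D) (hs : Dat.Spread 0 p D) {e : ℤ}
    (he : e = 1 ∨ e = -1) (g k : FreeGroup ι) :
    V.t.τ (V.L g * dd V δ p D (-e) (dd V δ p D e (V.L k))) =
      -V.t.τ (star (dd V δ p D e (V.L g⁻¹)) * dd V δ p D e (V.L k)) := by
  have hL : ∀ g, V.L g ∈ Sp V (⊤ : Subgroup (FreeGroup ι)) := fun g => mem_Sp trivial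
  have h1 := τ_dd' (δ := δ) V hD hs (e := -e) (by omega) (Sp_mul_mem (hL g) (dd_mem V δ p D e (hL k)))
  rw [(dd_der V δ p D (-e)).leib (hL g) (dd_mem V δ p D e (hL k)), map_add] at h1
  rw [(dd_der V δ p D (-e)).star_L (dd_der V δ p D e) (star_vv V δ p D e), inv_inv]
  linear_combination h1

/-- squared norm of the derivative of a letter -/
noncomputable def nn (D : ℕ) (a : ι) : ℝ := if a = δ.c then 1 else 1 / D

variable {δ} in
theorem dd_norm {p : ℕ → ℤ} {D : ℕ} (hD : 0 < D) (hs : Dat.Spread 0 p D) {e : ℤ}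
    (he : e = 1 ∨ e = -1) {a : ι} (ha : a = δ.c ∨ a = δ.y) :
    V.t.τ (star (dd V δ p D e (V.L (.of a))) * dd V δ p D e (V.L (.of a))) = nn δ D a := by
  rw [(dd_der V δ p D e).of, star_mul, mul_assoc, V.t.τ_comm, V.st, mul_assoc, mul_assoc, L_mul_inv,
    mul_one]
  rcases ha with rfl | rfl
  · simp [vv_c, nn, V.st, -map_zpow, L_inv_mul, smul_smul, V.t.τ_one]
  · simp only [vv_y, nn, if_neg δ.yc, star_smul, smul_mul_smul_comm, map_smul, star_sum,
      Finset.sum_mul_sum, map_sum, τ_LL']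
    rw [Finset.sum_congr rfl (g := fun _ => 1) fun j hj => ?_]
    · have : (D : ℂ) ≠ 0 := by exact_mod_cast hD.ne'
      simp; field_simp; simp
    · rw [Finset.sum_eq_single j (fun k hk hkj => if_neg fun h6 => hkj ?_) (fun h => absurd hj h),
        if_pos rfl]
      simpa using δ.Wk_inj hs (ok_some (by simpa using hk)) (ok_some (by simpa using hj))
        (by omega) h6.symm

/-- the filter of more and more spread positions -/
def spr (D : ℕ) : Filter (ℕ → ℤ) where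
  sets := {S | ∃ R, ∀ p, Dat.Spread R p D → p ∈ S}
  univ_sets := ⟨0, fun _ _ => trivial⟩
  sets_of_superset := fun ⟨R, h⟩ hs => ⟨R, fun p hp => hs (h p hp)⟩
  inter_sets := fun ⟨R, h⟩ ⟨R', h'⟩ => ⟨max R R', fun p hp =>
    ⟨h p fun k l hk hl e => (le_max_left _ _).trans_lt (hp k l hk hl e),
      h' p fun k l hk hl e => (le_max_right _ _).trans_lt (hp k l hk hl e)⟩⟩

theorem spr_ev (D : ℕ) (R : ℤ) : ∀ᶠ p in spr D, Dat.Spread R p D := ⟨R, fun _ h => h⟩

theorem dd_orth {D : ℕ} (hD : 0 < D) {e : ℤ} (he : e = 1 ∨ e = -1) (a : ι) {g : FreeGroup ι}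
    (hg : g ≠ .of a) : ∀ᶠ p in spr D,
      V.t.τ (star (dd V δ p D e (V.L g)) * dd V δ p D e (V.L (.of a))) = 0 := by
  obtain ⟨S, hS⟩ := exists_supp g
  choose R h0 hR using δ.exists_loc
  set R' := ∑ b ∈ S, R b + R (g * (.of a)⁻¹)
  have h1 : 0 ≤ ∑ b ∈ S, R b := Finset.sum_nonneg fun _ _ => h0 _
  filter_upwards [spr_ev D (2 * R')] with p hp
  rw [V.t.τ_comm, (dd_der V δ p D e).of, mul_assoc]
  refine Sp_lin (V.t.τ.toLinearMap ∘ₗ LinearMap.mulRight ℂ _) ⊥ ?_ (vv_mem V δ p D e a)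
  rintro _ ⟨l, hl, rfl⟩
  have h2 := τ_Sp (hS V _ _ _ (dd_der V δ p D e) (vv_mem V δ p D e)) (g := δ.Wk p D l ^ e * .of a) (by
    rintro ⟨b, hb, _, ⟨k, hk, rfl⟩, h3⟩
    refine hg (mul_inv_eq_one.1 (δ.uniq hD (add_nonneg h1 (h0 _)) hp hk hl he
      ((hR b).mono ?_) ((hR _).mono (le_add_of_nonneg_left h1)) ?_))
    · exact (Finset.single_le_sum (f := R) (fun _ _ => h0 _) hb).trans (le_add_of_nonneg_right (h0 _))
    · rw [← mul_assoc, ← h3]; simp)
  rw [← V.st, ← star_star (dd _ _ _ _ _ _), ← star_mul, V.t.τ_star, map_eq_zero, V.t.τ_comm,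
    map_mul V.L, mul_assoc] at h2
  exact h2

theorem len_x (st : ι → Prop) (h : st δ.x) (n : ℤ) : Len st 0 (.of δ.x ^ n) := by
  induction n using Int.induction_on with
  | zero => exact .one
  | succ n ih => rw [zpow_add_one]; exact ih.mul (.sta _ h)
  | pred n ih => rw [zpow_sub_one]; exact ih.mul (.sta' _ h)

theorem len_WW (st : ι → Prop) (h : st δ.x) (p : ℕ → ℤ) (k : ℕ) : Len st (1 + k) (δ.WW p k) := by
  refine (Len.dyn _).mul ?_
  induction k with
  | zero => exact .one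
  | succ k ih => exact ih.mul (((len_x δ st h _).mul (.dyn _)).mul (len_x δ st h _))

theorem vv_bd (st : ι → Prop) (h : st δ.x) (p : ℕ → ℤ) (D : ℕ) {e : ℤ} (he : e = 1 ∨ e = -1) (a : ι) :
    Bd V st (3 * D + 3) 1 (vv V δ p D e a) := by
  have h1 : ∀ k, Dat.ok D k → Len st (3 * D + 3) (δ.Wk p D k ^ e) := by
    intro k hk
    have h2 : Len st (1 + D) (δ.TT p k) := by
      cases k with
      | none => exact Len.one.mono (by omega)
      | some k => exact ((len_WW δ st h p k).mul (len_x δ st h _)).mono (by have := hk k rfl; omega)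
    have h3 := ((h2.inv.mul (len_WW δ st h p D)).mul h2).mono (b := 3 * D + 3) (by omega)
    rcases he with rfl | rfl
    · rwa [zpow_one]
    · rw [zpow_neg, zpow_one]; exact h3.inv
  intro ψ B hB
  have hB0 : 0 ≤ B := (norm_nonneg _).trans (hB _ (h1 _ (ok_none D)))
  unfold vv
  split_ifs
  · simpa [norm_smul, Wk_none, -map_zpow] using hB _ (h1 _ (ok_none D))
  · rw [map_smul, map_sum, norm_smul]
    have := (norm_sum_le _ _).trans (Finset.sum_le_sum (s := Finset.range D)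
      fun k hk => hB _ (h1 _ (ok_some (by simpa using hk))))
    refine (mul_le_mul_of_nonneg_left this (norm_nonneg _)).trans ?_
    simp only [norm_div, norm_neg, norm_I, norm_natCast, Finset.sum_const, Finset.card_range,
      nsmul_eq_mul, ← mul_assoc]
    gcongr
    rw [one_div]; exact inv_mul_le_one_of_le₀ le_rfl (by positivity)
  · simpa using hB0

theorem Bd.comb {V : VN (FreeGroup ι)} {st : ι → Prop} {l : ℕ} {x y : V.C} (hx : Bd V st l 1 x)
    (hy : Bd V st l 1 y) {a b : ℂ} (ha : ‖a‖ = 1) (hb : ‖b‖ = 1) : Bd V st l 2 (a • x + b • y) := by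
  intro ψ B hB
  have h1 := hx ψ B hB
  have h2 := hy ψ B hB
  rw [map_add, map_smul, map_smul]
  refine (norm_add_le _ _).trans ?_
  rw [norm_smul, norm_smul, ha, hb]; linarith

/-- the real derivations -/
noncomputable def dl2 (p : ℕ → ℤ) (D : ℕ) (l : ℂ) : V.C →ₗ[ℂ] V.C :=
  l • dd V δ p D 1 + conj l • dd V δ p D (-1)

theorem dl2_der (p : ℕ → ℤ) (D : ℕ) (l : ℂ) :
    IsDer (dl2 V δ p D l) fun a => l • vv V δ p D 1 a + conj l • vv V δ p D (-1) a :=
  (dd_der V δ p D 1).lin (dd_der V δ p D (-1)) _ _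

theorem dl2_bd (p : ℕ → ℤ) (D : ℕ) {l : ℂ} (hl : ‖l‖ = 1) (a : ι) :
    Bd V (fun a => a ≠ δ.y ∧ a ≠ δ.c) (3 * D + 3) 2
      (l • vv V δ p D 1 a + conj l • vv V δ p D (-1) a) :=
  (vv_bd V δ _ ⟨δ.xy.symm, δ.xc.symm⟩ p D (.inl rfl) a).comb
    (vv_bd V δ _ ⟨δ.xy.symm, δ.xc.symm⟩ p D (.inr rfl) a) hl (by simpa using hl)

theorem dl2_pow (p : ℕ → ℤ) (D : ℕ) {l : ℂ} (hl : ‖l‖ = 1) (a : ι) (k : ℕ) :
    ‖(dl2 V δ p D l ^ k) (V.L (.of a))‖ ≤ (6 * D + 6) ^ k * k ! := by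
  have := (dl2_der V δ p D l).pow_bd zero_le_two (fun a ha => by simp [vv_st V δ p D _ ha])
    (dl2_bd V δ p D hl) k 1 ((Len.dyn a).mono (by omega))
  rw [Nat.one_ascFactorial] at this
  convert this using 3; push_cast; ring

variable {δ} in
theorem exists_beta {p : ℕ → ℤ} {D : ℕ} (hD : 0 < D) (hs : Dat.Spread 0 p D) {l : ℂ} (hl : ‖l‖ = 1)
    {t : ℝ} (h0 : 0 ≤ t) (ht : t * (12 * D + 12) < 1) :
    ∃ β : V.C ≃⋆ₐ[ℂ] V.C, (∀ a, V.t.τ (β a) = V.t.τ a) ∧
      (∀ a, a ≠ δ.y ∧ a ≠ δ.c → β (V.L (.of a)) = V.L (.of a)) ∧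
      (∀ a ∈ Cl V δ.deg.ker, β a ∈ Cl V δ.deg.ker) ∧
      ∀ a, ‖β (V.L (.of a)) - (V.L (.of a) + (t : ℂ) • dl2 V δ p D l (V.L (.of a)) +
        (t : ℂ) ^ 2 • ((1 / 2 : ℂ) • dl2 V δ p D l (dl2 V δ p D l (V.L (.of a)))))‖ ≤
          2 * (6 * D + 6) ^ 3 * t ^ 3 := by
  have h := dl2_der V δ p D l
  have hv : ∀ a, l • vv V δ p D 1 a + conj l • vv V δ p D (-1) a ∈ Sp V δ.deg.ker := fun a =>
    add_mem (Submodule.smul_mem _ _ (vv_ker V δ p D _ a)) (Submodule.smul_mem _ _ (vv_ker V δ p D _ a))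
  have hst : ∀ a, a ≠ δ.y ∧ a ≠ δ.c → l • vv V δ p D 1 a + conj l • vv V δ p D (-1) a = 0 :=
    fun a ha => by simp [vv_st V δ p D _ ha]
  obtain ⟨β, h1, h2⟩ := exists_flow h (fun a => Sp_mono (fun _ _ => trivial) (hv a))
    (fun a => by simp [star_vv, add_comm]) (fun g => by
      simp [dl2, τ_dd V hD hs (.inl rfl), τ_dd V hD hs (.inr rfl)]) (by positivity)
    (h.pow_bd' zero_le_two (by omega) hst (dl2_bd V δ p D hl)) (t := t) (by
      rw [abs_of_nonneg h0]; convert ht using 2; push_cast; ring)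
  refine ⟨β, h1, fun a ha => (h2 _).unique ?_, fun a => Cl_map h1 fun g hg => ?_, fun a => ?_⟩
  · convert hasSum_single 0 _ using 1
    · simp
    · intro k hk
      obtain ⟨k, rfl⟩ := Nat.exists_eq_succ_of_ne_zero hk
      simp [pow_succ, h.of, hst a ha]
  · refine (isClosed_Cl _).mem_of_tendsto (h2 g) (.of_forall fun s => sum_mem fun k hk =>
      Submodule.smul_mem _ _ (Cl_of_Sp ?_))
    clear hk
    induction k with
    | zero => exact mem_Sp hg
    | succ k ih => rw [pow_succ']; exact h.mem _ hv le_rfl ih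
  · have h3 := (hasSum_nat_add_iff' 3).2 (h2 (.of a))
    set r : ℝ := 6 * D + 6
    have hr : t * r < 1 / 2 := by simp only [r]; linarith
    have hr0 : 0 ≤ t * r := by positivity
    have h4 := (hasSum_geometric_of_lt_one hr0 (by linarith)).mul_left ((t * r) ^ 3)
    have h5 := h3.norm_le_of_bounded h4 fun k => by
      rw [norm_smul, norm_real, norm_div, norm_pow, Real.norm_natCast, Real.norm_of_nonneg h0]
      refine (mul_le_mul_of_nonneg_left (dl2_pow V δ p D hl a _) (by positivity)).trans_eq ?_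
      have : ((k + 3)! : ℝ) ≠ 0 := by positivity
      change _ * (r ^ _ * _) = _
      field_simp; ring
    refine le_of_eq_of_le ?_ (h5.trans ?_)
    · congr 2
      simp [Finset.sum_range_succ, pow_succ, smul_smul, Nat.factorial, div_eq_mul_inv]
    · have : (1 - t * r)⁻¹ ≤ 2 := by rw [inv_le_comm₀ (by linarith) two_pos]; linarith
      nlinarith [pow_nonneg hr0 3]

/-- the second order term -/
noncomputable def ZZ (p : ℕ → ℤ) (D : ℕ) (a : ι) : V.C :=
  dd V δ p D 1 (dd V δ p D (-1) (V.L (.of a))) + dd V δ p D (-1) (dd V δ p D 1 (V.L (.of a)))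

theorem ZZ_eq (p : ℕ → ℤ) (D : ℕ) (a : ι) {l : ℂ} (hl : ‖l‖ = 1) :
    dl2 V δ p D l (dl2 V δ p D l (V.L (.of a))) + dl2 V δ p D (l * I) (dl2 V δ p D (l * I) (V.L (.of a)))
      = (2 : ℂ) • ZZ V δ p D a := by
  have : l * conj l = 1 := by rw [mul_conj, normSq_eq_norm_sq, hl]; simp
  simp only [dl2, ZZ, LinearMap.add_apply, LinearMap.smul_apply, map_add, map_smul, map_mul, conj_I]
  match_scalars
  · linear_combination (l ^ 2) * I_sq
  · linear_combination 2 * this - (l * conj l) * I_sq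
  · linear_combination 2 * this - (l * conj l) * I_sq
  · linear_combination (conj l ^ 2) * I_sq

theorem tendsto_ZZ {D : ℕ} (hD : 0 < D) {a : ι} (ha : a = δ.c ∨ a = δ.y) (ξ : V.C) :
    Tendsto (fun p => V.t.τ (ξ * ZZ V δ p D a) + 2 * nn δ D a * V.t.τ (ξ * V.L (.of a))) (spr D)
      (𝓝 0) := by
  have hn : 0 ≤ nn δ D a := by unfold nn; split_ifs <;> positivity
  refine tendsto_ext (fun p ξ => V.t.τ (ξ * ZZ V δ p D a) + 2 * nn δ D a * V.t.τ (ξ * V.L (.of a)))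
    (fun p => ⟨fun x y => by simp only [add_mul, map_add]; ring, fun c x => by
      simp only [smul_mul_assoc, map_smul, smul_eq_mul]; ring⟩)
    (K := (6 * D + 6) ^ 2 * 2 + 2 * nn δ D a) (by positivity) (fun p ξ => ?_) (fun g _ => ?_)
    (Cl_univ ξ)
  · have h1 : ‖ZZ V δ p D a‖ ≤ (6 * D + 6) ^ 2 * 2 := by
      have h2 := congrArg norm (ZZ_eq V δ p D a norm_one)
      have h3 := dl2_pow V δ p D norm_one a 2
      have h4 := dl2_pow V δ p D (l := 1 * I) (by simp) a 2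
      simp only [pow_two (dl2 _ _ _ _ _), Module.End.mul_apply, Nat.factorial_two, Nat.cast_ofNat] at h3 h4
      rw [norm_smul, RCLike.norm_two] at h2
      linarith [norm_add_le (dl2 V δ p D 1 (dl2 V δ p D 1 (V.L (.of a))))
        (dl2 V δ p D (1 * I) (dl2 V δ p D (1 * I) (V.L (.of a))))]
    refine (norm_add_le _ _).trans ?_
    have h2 := τ_mul_le ξ (V.L (.of a))
    rw [norm_L] at h2
    rw [add_mul, norm_mul, norm_mul, RCLike.norm_two, norm_real, Real.norm_of_nonneg hn]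
    gcongr
    · exact (τ_mul_le _ _).trans (mul_le_mul_of_nonneg_right h1 (V.t.n2_nonneg _))
    · linarith
  refine tendsto_const_nhds.congr' ?_
  have key : ∀ e : ℤ, e = 1 ∨ e = -1 → ∀ᶠ p in spr D,
      V.t.τ (V.L g * dd V δ p D (-e) (dd V δ p D e (V.L (.of a)))) =
        -(nn δ D a * V.t.τ (V.L g * V.L (.of a))) := by
    intro e he
    by_cases hg : g⁻¹ = .of a
    · filter_upwards [spr_ev D 0] with p hp
      rw [dd_adj V hD hp he, hg, dd_norm V hD hp he ha, ← hg, L_mul_inv, V.t.τ_one, mul_one]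
    · filter_upwards [spr_ev D 0, dd_orth V δ hD he a hg] with p hp h1
      rw [dd_adj V hD hp he, h1, ← map_mul, V.τL, if_neg, mul_zero]
      exact fun h => hg (eq_inv_of_mul_eq_one_right h).symm
  filter_upwards [key 1 (.inl rfl), key (-1) (.inr rfl)] with p h1 h2
  rw [neg_neg] at h2
  rw [ZZ, mul_add, map_add, h1, h2]; ring

end Crest.Agent.FG
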