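import Crest.Agent.FG.Key
/-! The Baire category argument and the isomorphism. -/
set_option autoImplicit false
set_option linter.deprecated false
set_option linter.unusedSimpArgs false
set_option linter.unusedVariables false
set_option linter.unusedSectionVars false
set_option linter.style.haveILetI false
namespace Crest.Agent.FG
open scoped InnerProductSpace ComplexConjugate
open Filter Topology Crest.Agent.Nk

variable {ι κ : Type} [DecidableEq ι] [DecidableEq κ] {V : VN (FreeGroup ι)} (δ : Dat ι) (j : κ → ι)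

/-- substitution of a unitary for the letter `y` -/
noncomputable def pu (u : unitary V.C) : FreeGroup κ →* V.C :=
  (unitary V.C).subtype.comp (FreeGroup.lift fun k =>
    if j k = δ.y then u else ⟨V.L (.of (j k)), L_unitary _⟩)

theorem star_pu (u : unitary V.C) (h : FreeGroup κ) : star (pu δ j u h) = pu δ j u h⁻¹ := by
  rw [pu, MonoidHom.comp_apply, MonoidHom.comp_apply, MonoidHom.map_inv]; rfl

theorem norm_pu (u : unitary V.C) (h : FreeGroup κ) : ‖pu δ j u h‖ = 1 := by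
  haveI := V.t.nontrivial
  exact CStarRing.norm_coe_unitary _

theorem pu_lip (h : FreeGroup κ) : ∃ K, 0 ≤ K ∧ ∀ u v : unitary V.C,
    V.t.n2 (pu δ j u h - pu δ j v h) ≤ K * V.t.n2 (u.1 - v.1) := by
  refine fg_ind (fun h => ∃ K, 0 ≤ K ∧ ∀ u v : unitary V.C,
    V.t.n2 (pu δ j u h - pu δ j v h) ≤ K * V.t.n2 (u.1 - v.1)) ⟨0, le_rfl, by simp [V.t.n2_zero]⟩
    (fun a => ⟨1, zero_le_one, fun u v => ?_⟩) ?_ ?_ h
  · by_cases e : j a = δ.y <;> simp [pu, e, V.t.n2_zero, V.t.n2_nonneg]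
  · rintro g ⟨K, K0, h⟩
    exact ⟨K, K0, fun u v => by rw [← star_pu, ← star_pu, ← star_sub, V.t.n2_star]; exact h u v⟩
  · rintro g k ⟨K, K0, h⟩ ⟨K', K0', h'⟩
    refine ⟨K + K', by positivity, fun u v => ?_⟩
    have a1 := n2_tri (pu δ j u (g * k)) (pu δ j v g * pu δ j u k) (pu δ j v (g * k))
    have a2 := V.t.n2_mul_right (pu δ j u g - pu δ j v g) (pu δ j u k)
    have a3 := V.t.n2_mul_left (pu δ j v g) (pu δ j u k - pu δ j v k)
    rw [norm_pu, sub_mul, ← map_mul] at a2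
    rw [norm_pu, mul_sub, ← map_mul] at a3
    linarith [h u v, h' u v]

theorem pu_eq {α : V.C ≃⋆ₐ[ℂ] V.C} (hj : ∀ k, j k ≠ δ.c)
    (hα : ∀ a, a ≠ δ.y ∧ a ≠ δ.c → α (V.L (.of a)) = V.L (.of a)) {u : unitary V.C}
    (hu : u.1 = α (V.L (.of δ.y))) (h : FreeGroup κ) : pu δ j u h = α (V.L (FreeGroup.map j h)) := by
  refine fg_ind (fun h => pu δ j u h = α (V.L (FreeGroup.map j h))) (by simp) (fun a => ?_)
    (fun g h => by rw [← star_pu, h, ← map_star, V.st, MonoidHom.map_inv])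
    (fun g k h h' => by simp only [map_mul, h, h']) h
  by_cases e : j a = δ.y
  · simp [pu, e, hu]
  · simp [pu, e, hα _ ⟨e, hj a⟩]

theorem exists_free [Countable ι] (hj : Function.Injective j) (hc : ∀ k, j k ≠ δ.c)
    (hc' : ∀ a, a ≠ δ.c → ∃ k, j k = a) : ∃ π : FreeGroup κ →* V.C, (∀ k, star (π k) = π k⁻¹) ∧
      (∀ k, V.t.τ (π k) = if k = 1 then 1 else 0) ∧ Gen V.t π := by
  let A : Set (V.C ≃⋆ₐ[ℂ] V.C) := {α | (∀ a, V.t.τ (α a) = V.t.τ a) ∧
    ∀ a, a ≠ δ.y ∧ a ≠ δ.c → α (V.L (.of a)) = V.L (.of a)}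
  let O : Set V.t.Y := {ξ | ∃ α ∈ A, vec V (α (V.L (.of δ.y))) = ξ}
  have hun : ∀ (α : V.C ≃⋆ₐ[ℂ] V.C) g, α (V.L g) ∈ unitary V.C := fun α g => by
    rw [Unitary.mem_iff, ← map_star, ← map_mul, ← map_mul, V.st, L_inv_mul, L_mul_inv, map_one]
    exact ⟨rfl, rfl⟩
  have h1 : ∀ ξ : closure O, ∃ u : unitary V.C, vec V u.1 = ξ := by
    rintro ⟨ξ, hξ⟩
    obtain ⟨f, h1, h2⟩ := mem_closure_iff_seq_limit.1 hξ
    choose α h3 h4 using h1
    obtain rfl : (fun n => vec V (α n (V.L (.of δ.y)))) = f := funext h4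
    obtain ⟨v, h5, h6⟩ := V.cpl _ (fun n => hun (α n) _) h2.cauchySeq
    exact ⟨⟨v, h5⟩, tendsto_nhds_unique h6 h2⟩
  choose u hu using h1
  have h2 : ∀ (ξ : closure O) (α : V.C ≃⋆ₐ[ℂ] V.C), α ∈ A → vec V (α (V.L (.of δ.y))) = ξ →
      ∀ h, pu δ j (u ξ) h = α (V.L (FreeGroup.map j h)) := fun ξ α hα e =>
    pu_eq δ j hc hα.2 (sub_eq_zero.1 (V.t.n2_eq_zero (by rw [n2_dist, hu, e, dist_self])))
  have h3 : ∀ h, Continuous fun ξ : closure O => vec V (pu δ j (u ξ) h) := by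
    intro h
    obtain ⟨K, K0, hK⟩ := pu_lip (V := V) δ j h
    refine (LipschitzWith.of_dist_le_mul (K := ⟨K, K0⟩) fun ξ η => ?_).continuous
    have := hK (u ξ) (u η)
    rwa [n2_dist, n2_dist, hu, hu] at this
  have hd : Dense ((↑) ⁻¹' O : Set (closure O)) :=
    Subtype.dense_iff.2 (by rw [Subtype.image_preimage_coe, Set.inter_eq_right.2 subset_closure])
  let U : FreeGroup ι × ℕ → Set (closure O) := fun i => ⋃ f : FreeGroup κ →₀ ℂ,
    {ξ | dist (vec V (V.L i.1)) (f.sum fun h c => c • vec V (pu δ j (u ξ) h)) < 1 / (i.2 + 1)}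
  have hU : ∀ i, IsOpen (U i) := fun i => isOpen_iUnion fun f =>
    isOpen_lt (continuous_const.dist (continuous_finset_sum _ fun h _ => (h3 h).const_smul _))
      continuous_const
  have hU' : ∀ i, Dense (U i) := by
    rintro ⟨g, n⟩
    refine Dense.of_closure (hd.mono ?_)
    rintro ⟨_, hξ⟩ ⟨α, hα, rfl⟩
    refine Metric.mem_closure_iff.2 fun ε hε => ?_
    obtain ⟨θ, k1, k2, q, k3, k4⟩ := key2 δ (FreeGroup.map j).range (fun a ha => by
      obtain ⟨k, rfl⟩ := hc' a ha; exact ⟨.of k, rfl⟩) (α.symm (V.L g)) (ε := min ε (1 / (n + 1)))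
      (lt_min hε (by positivity))
    have k5 : θ.symm.trans α ∈ A := ⟨fun a => by
      rw [StarAlgEquiv.trans_apply, hα.1, ← k1.tr, θ.apply_symm_apply], fun a ha => by
      rw [StarAlgEquiv.trans_apply, ← k1.fix a ha, θ.symm_apply_apply, k1.fix a ha, hα.2 a ha]⟩
    have k6 : ∀ a b, V.t.n2 (α a - (θ.symm.trans α) b) = V.t.n2 (θ a - b) := fun a b => by
      rw [StarAlgEquiv.trans_apply, ← map_sub, n2_map hα.1, ← n2_map k1.tr, map_sub,
        θ.apply_symm_apply]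
    refine ⟨⟨_, subset_closure ⟨_, k5, rfl⟩⟩, ?_, ?_⟩
    · have k7 : q ∈ Submodule.span ℂ (Set.range fun h => V.L (FreeGroup.map j h)) := by
        rwa [Sp, MonoidHom.coe_range, ← Set.range_comp] at k3
      obtain ⟨f, rfl⟩ := Finsupp.mem_span_range_iff_exists_finsupp.1 k7
      refine Set.mem_iUnion.2 ⟨f, ?_⟩
      have k8 := k4.trans_le (min_le_right _ _)
      rw [← k6, α.apply_symm_apply, n2_dist] at k8
      simpa only [Set.mem_setOf_eq, h2 ⟨_, subset_closure ⟨_, k5, rfl⟩⟩ _ k5 rfl, Finsupp.sum, map_sum,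
        map_smul] using k8
    · have k8 := k2.trans_le (min_le_left _ _)
      rwa [← k6, n2_dist] at k8
  haveI : CompleteSpace (closure O) := isClosed_closure.completeSpace_coe
  haveI : Nonempty (closure O) := ⟨⟨_, subset_closure ⟨.refl ℂ _, ⟨fun _ => rfl, fun _ _ => rfl⟩, rfl⟩⟩⟩
  obtain ⟨ξ, hξ⟩ := (dense_iInter_of_isOpen hU hU').nonempty
  refine ⟨pu δ j (u ξ), star_pu δ j _, fun k => ?_, ?_⟩
  · refine congrFun (Continuous.ext_on hd (f := fun ξ => ⟪V.t.om, vec V (pu δ j (u ξ) k)⟫_ℂ)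
      (g := fun _ => if k = 1 then 1 else 0) (continuous_const.inner (h3 k)) continuous_const ?_) ξ
    rintro η ⟨α, hα, e⟩
    change V.t.τ (pu δ j (u η) k) = _
    rw [h2 η α hα e, hα.1, V.τL]
    simp only [map_eq_one_iff _ (FreeGroup.map_injective hj)]
  · rw [gen_iff]
    refine Dense.of_closure (((gen_iff _ _).1 V.gen).mono ?_)
    refine (Submodule.span_le (p := Submodule.topologicalClosure _)).2 ?_
    rintro _ ⟨g, rfl⟩
    refine Metric.mem_closure_iff.2 fun ε hε => ?_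
    obtain ⟨n, hn⟩ := exists_nat_one_div_lt hε
    obtain ⟨f, hf⟩ := Set.mem_iUnion.1 (Set.mem_iInter.1 hξ (g, n))
    exact ⟨_, sum_mem fun h _ => Submodule.smul_mem _ _ (Submodule.subset_span ⟨h, rfl⟩), lt_trans hf hn⟩

theorem main (n : ℕ) (hn : 2 ≤ n) :
    ∃ Φ : MM (FreeGroup (Fin n)) ≃⋆ₐ[ℂ] MM (FreeGroup (Fin (n + 1))),
      ∀ a, (tG _).τ (Φ a) = (tG _).τ a := by
  obtain ⟨π, h1, h2, h3⟩ := exists_free (V := vn (FreeGroup (Fin (n + 1))))
    ⟨⟨0, by omega⟩, ⟨1, by omega⟩, Fin.last n, by simp, by simp [Fin.ext_iff]; omega,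
      by simp [Fin.ext_iff]; omega⟩ Fin.castSucc (Fin.castSucc_injective n)
    (fun k => Fin.castSucc_ne_last k) fun a ha => Fin.exists_castSucc_eq.2 ha
  obtain ⟨Φ, -, h⟩ := exists_iso π h1 h2 h3
  exact ⟨Φ, h⟩

end Crest.Agent.FG
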