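import Crest.Agent.FG.Step
/-! The key approximation lemma. -/
set_option autoImplicit false
set_option linter.deprecated false
set_option linter.unusedSimpArgs false
set_option linter.unusedVariables false
set_option linter.unusedSectionVars false
set_option linter.style.haveILetI false
namespace Crest.Agent.FG
open scoped InnerProductSpace ComplexConjugate
open Filter Topology Crest.Agent.Nk

theorem descent {S : Type} (e m : S → ℝ) (he : ∀ s, 0 ≤ e s) (hm : ∀ s, 0 ≤ m s) (s0 : S)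
    (h0 : m s0 = 0)
    (step : ∀ (D : ℕ) (κ : ℝ), 0 < D → 0 < κ → ∃ C t0 : ℝ, 0 < C ∧ 0 < t0 ∧ ∀ t, 0 < t → t ≤ t0 →
      ∀ s, ∀ ε > 0, ∃ s', e s' + κ * D * m s' ≤ e s + κ * D * m s +
        t ^ 2 * (-e s ^ 2 + 2 * D * m s + 2 * κ) + C * t ^ 3 + ε) {ε : ℝ} (hε : 0 < ε) :
    ∃ s, m s < ε ∧ e s < ε := by
  by_contra! hcon
  let A : Set ℝ := {a | ∃ ε > 0, ∀ s, m s < ε → a ≤ e s}
  have hA : ε ∈ A := ⟨ε, hε, hcon⟩
  have hb : BddAbove A := ⟨e s0, fun a ⟨ε, h1, h2⟩ => h2 s0 (by rwa [h0])⟩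
  obtain ⟨E, hE⟩ : ∃ E, E = sSup A := ⟨_, rfl⟩
  have E0 : 0 < E := hε.trans_le (hE ▸ le_csSup hb hA)
  obtain ⟨κ, hκ⟩ : ∃ κ, κ = E ^ 2 / 16 := ⟨_, rfl⟩
  have κ0 : 0 < κ := by rw [hκ]; positivity
  obtain ⟨η, η0, η1, η2⟩ : ∃ η > 0, η ≤ κ * E ^ 2 / 64 ∧ η ≤ E / 2 :=
    ⟨min _ _, lt_min (by positivity) (by positivity), min_le_left _ _, min_le_right _ _⟩
  obtain ⟨a, ⟨ε0, hε0, ha⟩, ha'⟩ := exists_lt_of_lt_csSup ⟨ε, hA⟩ (show E - η < sSup A by linarith)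
  obtain ⟨D, hD⟩ := exists_nat_gt (2 * E / (κ * ε0))
  have D0 : (0 : ℝ) < D := lt_trans (by positivity) hD
  rw [div_lt_iff₀ (by positivity)] at hD
  obtain ⟨C, t0, C0, ht0, hst⟩ := step D κ (by exact_mod_cast D0) κ0
  obtain ⟨t, t1, t2, t3⟩ : ∃ t > 0, t ≤ t0 ∧ t ≤ E ^ 2 / 64 / C :=
    ⟨min _ _, lt_min ht0 (by positivity), min_le_left _ _, min_le_right _ _⟩
  rw [le_div_iff₀ C0] at t3
  obtain ⟨γ, γ0, γ1, γ2⟩ : ∃ γ > 0, γ ≤ η ∧ γ ≤ t ^ 2 * E ^ 2 / 256 :=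
    ⟨min _ _, lt_min η0 (by positivity), min_le_left _ _, min_le_right _ _⟩
  have hκD : 0 < κ * D := by positivity
  haveI : Nonempty S := ⟨s0⟩
  have hb' : BddBelow (Set.range fun s => e s + κ * D * m s) :=
    ⟨0, by rintro _ ⟨s, rfl⟩; exact add_nonneg (he s) (mul_nonneg hκD.le (hm s))⟩
  obtain ⟨J, hJ⟩ : ∃ J, J = ⨅ s, e s + κ * D * m s := ⟨_, rfl⟩
  have J1 : ∀ s, J ≤ e s + κ * D * m s := fun s => hJ ▸ ciInf_le hb' s
  have J2 : J ≤ E + η := by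
    have : E + η / 2 ∉ A := fun h => by have := le_csSup hb h; linarith
    simp only [A, Set.mem_setOf_eq, not_exists, not_and, not_forall, not_le] at this
    obtain ⟨s, h1, h2⟩ := this (η / 2 / (κ * D)) (by positivity)
    rw [lt_div_iff₀ hκD] at h1
    linarith [J1 s]
  obtain ⟨s, hs⟩ := exists_lt_of_ciInf_lt (show ⨅ s, e s + κ * D * m s < J + γ by linarith)
  have s1 : m s < ε0 := by
    by_contra! h
    linarith [he s, mul_le_mul_of_nonneg_left h hκD.le]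
  have s2 := ha s s1
  have s3 : D * m s ≤ 3 * E ^ 2 / 64 := le_of_mul_le_mul_left (by linarith) κ0
  have s4 : E ^ 2 / 4 ≤ e s ^ 2 := by nlinarith
  obtain ⟨s', h'⟩ := hst t t1 t2 s γ γ0
  have s5 : t ^ 2 * (-e s ^ 2 + 2 * D * m s + 2 * κ) ≤ t ^ 2 * (-E ^ 2 / 32) :=
    mul_le_mul_of_nonneg_left (by linarith) (sq_nonneg t)
  have s6 := mul_le_mul_of_nonneg_left t3 (sq_nonneg t)
  have s7 : 0 < t ^ 2 * E ^ 2 := by positivity
  linarith [J1 s']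

variable {ι : Type} [DecidableEq ι] {V : VN (FreeGroup ι)} (δ : Dat ι)

theorem exists_nrm (c q : V.C) : ∃ a : ℂ, V.t.τ (star (a • q) * c) = (V.t.n2 (a • q) ^ 2 : ℝ) ∧
    V.t.n2 (c - a • q) ^ 2 ≤ V.t.n2 (c - q) ^ 2 := by
  obtain ⟨_, hy, z, hz, h⟩ := (ℂ ∙ vec V q).exists_add_mem_mem_orthogonal (vec V c)
  obtain ⟨a, rfl⟩ := Submodule.mem_span_singleton.1 hy
  have h1 : ⟪vec V q, z⟫_ℂ = 0 := hz _ (Submodule.mem_span_singleton_self _)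
  refine ⟨a, ?_, ?_⟩
  · rw [← V.t.τ_star_self, ← inner_vec, ← inner_vec, h, map_smul, inner_add_right, inner_smul_left _ z,
      h1, mul_zero, add_zero]
  · have e : vec V (c - q) = (a - 1) • vec V q + z := by rw [map_sub, h]; module
    have e' : vec V (c - a • q) = z := by rw [map_sub, h, map_smul]; module
    rw [← norm_vec, ← norm_vec, e, e', @norm_add_sq ℂ, inner_smul_left, h1]
    simp

theorem key (H : Subgroup (FreeGroup ι)) (hx : .of δ.x ∈ H) (hy : .of δ.y ∈ H) {ε : ℝ} (hε : 0 < ε) :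
    ∃ θ, Tm δ θ ∧ V.t.n2 (θ (V.L (.of δ.y)) - V.L (.of δ.y)) < ε ∧
      ∃ q ∈ Sp V H, V.t.n2 (θ (V.L (.of δ.c)) - q) < ε := by
  let S := {x : (V.C ≃⋆ₐ[ℂ] V.C) × V.C // Tm δ x.1 ∧ x.2 ∈ Sp V (δ.deg.ker ⊓ H : Subgroup _) ∧
    V.t.τ (star x.2 * x.1 (V.L (.of δ.c))) = (V.t.n2 x.2 ^ 2 : ℝ)}
  have h := descent (S := S)
    (fun s => V.t.n2 (s.1.1 (V.L (.of δ.c)) - s.1.2) ^ 2)
    (fun s => V.t.n2 (s.1.1 (V.L (.of δ.y)) - V.L (.of δ.y)) ^ 2) (fun _ => sq_nonneg _)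
    (fun _ => sq_nonneg _) ⟨(.refl ℂ _, 0), ⟨fun _ => rfl, fun _ _ => rfl, fun _ h => h⟩, zero_mem _,
      by simp [V.t.n2_zero]⟩ (by simp [V.t.n2_zero]) (fun D κ hD hκ =>
        ⟨(1 + κ * D) * 40 * (6 * D + 6) ^ 6, 1 / (24 * D + 24), by positivity, by positivity,
          fun t t0 t1 ⟨⟨θ, q⟩, h1, h2, h3⟩ ε hε => ?_⟩) (pow_pos hε 2)
  · obtain ⟨⟨⟨θ, q⟩, h1, h2, _⟩, h3, h4⟩ := h
    exact ⟨θ, h1, lt_of_pow_lt_pow_left₀ 2 hε.le h3, q, Sp_mono (fun _ h => h.2) h2,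
      lt_of_pow_lt_pow_left₀ 2 hε.le h4⟩
  rw [le_div_iff₀ (by positivity)] at t1
  obtain ⟨θ', q', k1, k2, k3⟩ := step δ H hx hy hD hκ.le t0.le (by
    have : 0 < t * (12 * D + 12) := by positivity
    linarith) h1 h2 h3 (η := min 1 (ε / (7 + κ * D))) (lt_min one_pos (by positivity)) (min_le_left _ _)
  obtain ⟨a, k4, k5⟩ := exists_nrm (θ' (V.L (.of δ.c))) q'
  refine ⟨⟨(θ', a • q'), k1, Submodule.smul_mem _ _ k2, k4⟩, ?_⟩
  have := (le_div_iff₀' (by positivity)).1 (min_le_right 1 (ε / (7 + κ * D)))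
  dsimp only
  linarith

theorem exists_bdd (H : Subgroup (FreeGroup ι)) {q u : V.C} (hq : q ∈ Cl V H) (hu : u ∈ unitary V.C) :
    ∃ r ∈ Cl V H, ‖r‖ ≤ 4 ∧ V.t.n2 (u - r) ≤ 3 * V.t.n2 (u - q) := by
  let S : StarSubalgebra ℂ V.C :=
    { (Cl V H).toSubalgebra (Cl_of_Sp (by simpa using mem_Sp (V := V) (one_mem H)))
        fun _ _ => Cl_mul with star_mem' := Cl_star }
  haveI : IsClosed (S : Set V.C) := isClosed_Cl _
  haveI := V.t.nontrivial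
  obtain ⟨⟨b, hb⟩, h1, -, h2, h3⟩ := exists_resolvent (⟨q, hq⟩ : S)
  replace h1 : (1 + star q * q) * b = 1 := congrArg Subtype.val h1
  replace h2 : ‖b‖ ≤ 1 := h2
  replace h3 : star b = b := congrArg Subtype.val h3
  have h4 : ‖q * b‖ ≤ 2 := by
    have e : star (q * b) * (q * b) = b * (1 - b) := by
      rw [star_mul, h3, ← h1]; noncomm_ring
    have := CStarRing.norm_star_mul_self (x := q * b)
    have h5 := norm_mul_le b (1 - b)
    have h6 := norm_sub_le 1 b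
    rw [norm_one] at h6
    rw [e] at this
    nlinarith [norm_nonneg b, norm_nonneg (1 - b), norm_nonneg (q * b)]
  refine ⟨q * b + q * b, add_mem (Cl_mul hq hb) (Cl_mul hq hb), (norm_add_le _ _).trans (by linarith), ?_⟩
  have e : u - (q * b + q * b) = (u - q) * b - u * star (u - q) * (q * b) := by
    have h5 : u * star u = 1 := hu.2
    have h6 : u = u * ((1 + star q * q) * b) := by rw [h1, mul_one]
    rw [star_sub, mul_sub, h5]
    conv_lhs => rw [h6]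
    noncomm_ring
  have a1 := V.t.n2_mul_right (u - q) b
  have a2 := V.t.n2_mul_right (u * star (u - q)) (q * b)
  have a3 := V.t.n2_mul_left u (star (u - q))
  rw [V.t.n2_star, CStarRing.norm_of_mem_unitary hu] at a3
  rw [e, ← norm_vec, map_sub]
  refine (norm_sub_le _ _).trans ?_
  rw [norm_vec, norm_vec]
  nlinarith [V.t.n2_nonneg (u - q), V.t.n2_nonneg (u * star (u - q))]

theorem key2 (H : Subgroup (FreeGroup ι)) (hH : ∀ a, a ≠ δ.c → .of a ∈ H) (z : V.C) {ε : ℝ}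
    (hε : 0 < ε) : ∃ θ, Tm δ θ ∧ V.t.n2 (θ (V.L (.of δ.y)) - V.L (.of δ.y)) < ε ∧
      ∃ q ∈ Sp V H, V.t.n2 (θ z - q) < ε := by
  let P : V.C → Prop := fun x => ∃ K, 0 ≤ K ∧ ∀ (θ : V.C ≃⋆ₐ[ℂ] V.C) (r : V.C) (γ : ℝ), Tm δ θ →
    r ∈ Cl V H → ‖r‖ ≤ 4 → V.t.n2 (θ (V.L (.of δ.y)) - V.L (.of δ.y)) ≤ γ →
    V.t.n2 (θ (V.L (.of δ.c)) - r) ≤ γ → ∃ s ∈ Cl V H, ‖s‖ ≤ K ∧ V.t.n2 (θ x - s) ≤ K * γ
  have h1 : ∀ g, P (V.L g) := by
    haveI := V.t.nontrivial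
    refine fg_ind (fun g => P (V.L g)) ⟨1, zero_le_one, fun θ r γ _ _ _ h _ => ⟨_, Cl_of_Sp (mem_Sp
      (one_mem H)), by simp, by simpa [V.t.n2_zero] using (V.t.n2_nonneg _).trans h⟩⟩
      (fun a => ⟨4, by norm_num, fun θ r γ hθ hr h4 hy hc => ?_⟩) ?_ ?_
    · have h0 : 0 ≤ γ := (V.t.n2_nonneg _).trans hy
      by_cases e : a = δ.c
      · exact ⟨r, hr, h4, by rw [e]; linarith⟩
      refine ⟨_, Cl_of_Sp (mem_Sp (hH a e)), by rw [norm_L]; norm_num, ?_⟩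
      by_cases e' : a = δ.y
      · rw [e']; linarith
      · rw [hθ.fix a ⟨e', e⟩, sub_self, V.t.n2_zero]; linarith
    · rintro g ⟨K, K0, h⟩
      refine ⟨K, K0, fun θ r γ hθ hr h4 hy hc => ?_⟩
      obtain ⟨s, k1, k2, k3⟩ := h θ r γ hθ hr h4 hy hc
      exact ⟨star s, Cl_star k1, by rwa [norm_star], by
        rwa [← V.st, map_star, ← star_sub, V.t.n2_star]⟩
    · rintro g k ⟨K, K0, h⟩ ⟨K', K0', h'⟩
      refine ⟨K + K * K', by positivity, fun θ r γ hθ hr h4 hy hc => ?_⟩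
      obtain ⟨s, k1, k2, k3⟩ := h θ r γ hθ hr h4 hy hc
      obtain ⟨s', k1', k2', k3'⟩ := h' θ r γ hθ hr h4 hy hc
      refine ⟨s * s', Cl_mul k1 k1', (norm_mul_le _ _).trans ?_, ?_⟩
      · nlinarith [norm_nonneg s, norm_nonneg s']
      · have a1 := n2_tri (θ (V.L (g * k))) (s * θ (V.L k)) (s * s')
        have a2 := V.t.n2_mul_right (θ (V.L g) - s) (θ (V.L k))
        have a3 := V.t.n2_mul_left s (θ (V.L k) - s')
        have a4 : ‖s‖ * V.t.n2 (θ (V.L k) - s') ≤ K * (K' * γ) := by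
          gcongr; exact V.t.n2_nonneg _
        rw [StarAlgEquiv.norm_map, norm_L, sub_mul, ← map_mul, ← map_mul] at a2
        rw [mul_sub] at a3
        linarith
  obtain ⟨n, hn, h2⟩ := mem_Cl.1 (Cl_univ z) (ε / 3) (by positivity)
  obtain ⟨K, K0, h3⟩ : P n := by
    refine Sp_ind P ⟨0, le_rfl, fun θ r γ _ _ _ _ _ => ⟨0, zero_mem _, by simp, by
      simp [V.t.n2_zero]⟩⟩ ?_ ?_ (fun g _ => h1 g) hn
    · rintro x y ⟨K, K0, h⟩ ⟨K', K0', h'⟩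
      refine ⟨K + K', by positivity, fun θ r γ hθ hr h4 hy hc => ?_⟩
      obtain ⟨s, k1, k2, k3⟩ := h θ r γ hθ hr h4 hy hc
      obtain ⟨s', k1', k2', k3'⟩ := h' θ r γ hθ hr h4 hy hc
      refine ⟨s + s', add_mem k1 k1', (norm_add_le _ _).trans (by linarith), ?_⟩
      rw [map_add, add_sub_add_comm]
      exact (V.t.n2_add _ _).trans (by linarith)
    · rintro c x ⟨K, K0, h⟩
      refine ⟨‖c‖ * K, by positivity, fun θ r γ hθ hr h4 hy hc => ?_⟩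
      obtain ⟨s, k1, k2, k3⟩ := h θ r γ hθ hr h4 hy hc
      refine ⟨c • s, Submodule.smul_mem _ _ k1, by rw [norm_smul]; gcongr, ?_⟩
      rw [map_smul, ← smul_sub, V.t.n2_smul, mul_assoc]; gcongr
  obtain ⟨θ, k1, k2, q, k3, k4⟩ := key (V := V) δ H (hH _ δ.xc.symm) (hH _ δ.yc)
    (ε := ε / 9 / (K + 1)) (by positivity)
  obtain ⟨r, k5, k6, k7⟩ := exists_bdd H (Cl_of_Sp k3) (u := θ (V.L (.of δ.c))) (by
    rw [Unitary.mem_iff, ← map_star, ← map_mul, ← map_mul, V.st, L_inv_mul, L_mul_inv, map_one]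
    exact ⟨rfl, rfl⟩)
  have e0 : 0 < ε / 9 / (K + 1) := by positivity
  have e1 : ε / 9 / (K + 1) * (K + 1) = ε / 9 := by field_simp
  obtain ⟨s, k8, -, k9⟩ := h3 θ r (3 * (ε / 9 / (K + 1))) k1 k5 k6 (by linarith) (by linarith)
  obtain ⟨q', k10, k11⟩ := mem_Cl.1 k8 (ε / 3) (by positivity)
  refine ⟨θ, k1, by nlinarith, q', k10, ?_⟩
  have a1 := n2_tri (θ z) (θ n) q'
  have a2 := n2_tri (θ n) s q'
  rw [← map_sub, n2_map k1.tr] at a1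
  nlinarith

end Crest.Agent.FG
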