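import Crest.Agent.FG.Der
/-! The 2-norm closure of spans and the mixing property of the shift. -/
set_option autoImplicit false
set_option linter.deprecated false
set_option linter.unusedSimpArgs false
set_option linter.unusedVariables false
set_option linter.unusedSectionVars false
set_option linter.style.haveILetI false
namespace Crest.Agent.FG
open scoped InnerProductSpace ComplexConjugate
open Filter Topology Crest.Agent.Nk

section
variable {G : Type} [Group G] [DecidableEq G] {V : VN G}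

/-- closure of the span for the 2-norm -/
noncomputable def Cl (V : VN G) (A : Set G) : Submodule ℂ V.C :=
  ((Sp V A).map (vec V)).topologicalClosure.comap (vec V)

theorem n2_dist (a b : V.C) : V.t.n2 (a - b) = dist (vec V a) (vec V b) := by
  rw [dist_eq_norm, ← map_sub]; rfl

theorem n2_tri (a b c : V.C) : V.t.n2 (a - c) ≤ V.t.n2 (a - b) + V.t.n2 (b - c) := by
  simp only [n2_dist]; exact dist_triangle _ _ _

theorem n2_symm (a b : V.C) : V.t.n2 (a - b) = V.t.n2 (b - a) := by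
  simp only [n2_dist]; exact dist_comm _ _

theorem mem_Cl {A : Set G} {a : V.C} : a ∈ Cl V A ↔ ∀ ε > 0, ∃ n ∈ Sp V A, V.t.n2 (a - n) < ε := by
  change vec V a ∈ closure ((Sp V A).map (vec V) : Set V.t.Y) ↔ _
  rw [Metric.mem_closure_iff]
  refine forall₂_congr fun ε _ => ⟨?_, fun ⟨n, h1, h2⟩ => ⟨_, ⟨n, h1, rfl⟩, by rwa [← n2_dist]⟩⟩
  rintro ⟨_, ⟨n, h1, rfl⟩, h2⟩
  exact ⟨n, h1, by rwa [n2_dist]⟩

theorem Cl_of_Sp {A : Set G} {a : V.C} (h : a ∈ Sp V A) : a ∈ Cl V A :=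
  mem_Cl.2 fun ε hε => ⟨a, h, by rwa [sub_self, V.t.n2_zero]⟩

theorem Cl_closed {A : Set G} {a : V.C} (h : ∀ ε > 0, ∃ n ∈ Cl V A, V.t.n2 (a - n) < ε) :
    a ∈ Cl V A := mem_Cl.2 fun ε hε => by
  obtain ⟨n, h1, h2⟩ := h (ε / 2) (by positivity)
  obtain ⟨m, h3, h4⟩ := mem_Cl.1 h1 (ε / 2) (by positivity)
  exact ⟨m, h3, by linarith [n2_tri a n m]⟩

theorem Cl_lip {A B : Set G} {f : V.C → V.C} {K : ℝ} (hK : 0 ≤ K)
    (hf : ∀ a b, V.t.n2 (f a - f b) ≤ K * V.t.n2 (a - b)) (h : ∀ n ∈ Sp V A, f n ∈ Cl V B)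
    {a : V.C} (ha : a ∈ Cl V A) : f a ∈ Cl V B := Cl_closed fun ε hε => by
  obtain ⟨n, h1, h2⟩ := mem_Cl.1 ha (ε / (K + 1)) (by positivity)
  refine ⟨_, h n h1, (hf a n).trans_lt ?_⟩
  rw [lt_div_iff₀ (by positivity)] at h2
  nlinarith [V.t.n2_nonneg (a - n)]

theorem Cl_mul {K : Subgroup G} {a b : V.C} (ha : a ∈ Cl V K) (hb : b ∈ Cl V K) :
    a * b ∈ Cl V K :=
  Cl_lip (f := (· * b)) (norm_nonneg b)
    (fun x y => by rw [← sub_mul, mul_comm ‖b‖]; exact V.t.n2_mul_right _ _)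
    (fun n hn => Cl_lip (f := (n * ·)) (norm_nonneg n)
      (fun x y => by rw [← mul_sub]; exact V.t.n2_mul_left _ _)
      (fun m hm => Cl_of_Sp (Sp_mul_mem hn hm)) hb) ha

theorem Cl_star {K : Subgroup G} {a : V.C} (ha : a ∈ Cl V K) : star a ∈ Cl V K :=
  Cl_lip (f := star) zero_le_one (fun x y => by rw [← star_sub, V.t.n2_star, one_mul])
    (fun n hn => Cl_of_Sp (Sp_star hn)) ha

theorem n2_L_mul (g : G) (a : V.C) : V.t.n2 (V.L g * a) ≤ V.t.n2 a := by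
  simpa [norm_L] using V.t.n2_mul_left (V.L g) a

theorem n2_mul_L (g : G) (a : V.C) : V.t.n2 (a * V.L g) ≤ V.t.n2 a := by
  simpa [norm_L] using V.t.n2_mul_right a (V.L g)

theorem n2_map {θ : V.C ≃⋆ₐ[ℂ] V.C} (h : ∀ a, V.t.τ (θ a) = V.t.τ a) (a : V.C) :
    V.t.n2 (θ a) = V.t.n2 a := by
  have := V.t.τ_star_self (θ a)
  rw [← map_star, ← map_mul, h, V.t.τ_star_self] at this
  exact (pow_left_inj₀ (V.t.n2_nonneg _) (V.t.n2_nonneg _) two_ne_zero).1
    (Complex.ofReal_injective this.symm)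

theorem Cl_map {A B : Set G} {θ : V.C ≃⋆ₐ[ℂ] V.C} (h : ∀ a, V.t.τ (θ a) = V.t.τ a)
    (hA : ∀ g ∈ A, θ (V.L g) ∈ Cl V B) {a : V.C} (ha : a ∈ Cl V A) : θ a ∈ Cl V B :=
  Cl_lip (f := θ) zero_le_one (fun x y => by rw [← map_sub, n2_map h, one_mul])
    (fun n hn => Sp_lin (θ : V.C →ₗ[ℂ] V.C) _ hA hn) ha

theorem Cl_univ (a : V.C) : a ∈ Cl V Set.univ :=
  mem_Cl.2 fun ε hε => by simpa [Sp] using V.gen a ε hε

theorem isClosed_Cl (A : Set G) : IsClosed (Cl V A : Set V.C) :=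
  isClosed_of_closure_subset fun a ha => Cl_closed fun ε hε => by
    obtain ⟨n, h1, h2⟩ := Metric.mem_closure_iff.1 ha ε hε
    exact ⟨n, h1, (V.t.n2_le _).trans_lt (by rwa [← dist_eq_norm])⟩

theorem tendsto_ext {X : Type} {l : Filter X} {A : Set G} (F : X → V.C → ℂ)
    (hl : ∀ p, IsLinearMap ℂ (F p)) {K : ℝ} (hK : 0 ≤ K) (hF : ∀ p a, ‖F p a‖ ≤ K * V.t.n2 a)
    (h : ∀ g ∈ A, Tendsto (fun p => F p (V.L g)) l (𝓝 0)) {a : V.C} (ha : a ∈ Cl V A) :
    Tendsto (fun p => F p a) l (𝓝 0) := by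
  have h1 : ∀ n ∈ Sp V A, Tendsto (fun p => F p n) l (𝓝 0) := fun n hn =>
    Sp_ind (fun n => Tendsto (fun p => F p n) l (𝓝 0)) (by simpa [(hl _).map_zero] using tendsto_const_nhds)
      (fun x y hx hy => by simpa [(hl _).map_add] using hx.add hy)
      (fun c x hx => by simpa [(hl _).map_smul] using hx.const_mul c) h hn
  rw [Metric.tendsto_nhds]
  intro ε hε
  obtain ⟨n, hn, h2⟩ := mem_Cl.1 ha (ε / 2 / (K + 1)) (by positivity)
  filter_upwards [Metric.tendsto_nhds.1 (h1 n hn) (ε / 2) (by positivity)] with p hp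
  rw [dist_zero_right] at hp ⊢
  have h3 := hF p (a - n)
  rw [(hl p).map_sub] at h3
  rw [lt_div_iff₀ (by positivity)] at h2
  have h4 := norm_add_le (F p a - F p n) (F p n)
  rw [sub_add_cancel] at h4
  nlinarith [V.t.n2_nonneg (a - n)]

theorem τ_mul_le (a b : V.C) : ‖V.t.τ (a * b)‖ ≤ ‖b‖ * V.t.n2 a :=
  (V.t.τ_le_n2 _).trans ((V.t.n2_mul_right a b).trans_eq (mul_comm _ _))

end

variable {ι : Type} [DecidableEq ι] {V : VN (FreeGroup ι)} (δ : Dat ι)

/-- the shift -/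
noncomputable def sg (p : ℤ) (a : V.C) : V.C := V.L (.of δ.x ^ p) * a * V.L (.of δ.x ^ (-p))

theorem sg_L (p : ℤ) (g : FreeGroup ι) : sg δ p (V.L g) = V.L (δ.sh p g) := by
  simp [sg, Dat.sh]

theorem star_sg (p : ℤ) (a : V.C) : star (sg δ p a) = sg δ p (star a) := by
  simp only [sg, star_mul, V.st, ← zpow_neg, neg_neg, mul_assoc]

theorem n2_sg (p : ℤ) (a : V.C) : V.t.n2 (sg δ p a) ≤ V.t.n2 a :=
  (n2_mul_L _ _).trans (n2_L_mul _ _)

theorem norm_sg (p : ℤ) (a : V.C) : ‖sg δ p a‖ ≤ ‖a‖ := by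
  refine (norm_mul_le _ _).trans ?_
  rw [norm_L, mul_one]
  simpa [norm_L] using norm_mul_le (V.L (.of δ.x ^ p)) a

theorem mem_ker {g : FreeGroup ι} : g ∈ (δ.deg.ker : Set (FreeGroup ι)) ↔ δ.dg g = 0 := by
  simp [Dat.dg]

theorem Cl_sg (p : ℤ) {a : V.C} (ha : a ∈ Cl V δ.deg.ker) : sg δ p a ∈ Cl V δ.deg.ker :=
  Cl_lip (f := sg δ p) zero_le_one (fun x y => by
    rw [one_mul]; convert n2_sg δ p (x - y) using 2; simp [sg, mul_sub, sub_mul])
    (fun n hn => Cl_of_Sp (Sp_mul hn _ _ fun k hk => by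
      rw [mem_ker] at hk ⊢; simp [hk])) ha

theorem mix4 {a e b : V.C} (ha : a ∈ Cl V δ.deg.ker) (he : e ∈ Cl V δ.deg.ker)
    (hb : b ∈ Cl V δ.deg.ker) :
    Tendsto (fun p : ℤ => V.t.τ (sg δ p a * e * sg δ p (V.L (.of δ.y)) * b) -
      V.t.τ (a * V.L (.of δ.y)) * V.t.τ e * V.t.τ b) atTop (𝓝 0) := by
  have hy : ∀ p, ‖sg δ p (V.L (.of δ.y))‖ ≤ 1 := fun p => (norm_sg δ p _).trans_eq (norm_L _)
  have bd : ∀ (p : ℤ) (a e b : V.C) (A E B : ℝ), ‖V.t.τ (sg δ p a * e * sg δ p (V.L (.of δ.y)) * b)‖ ≤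
      A * E * B → V.t.n2 a ≤ A → V.t.n2 e ≤ E → V.t.n2 b ≤ B →
      ‖V.t.τ (sg δ p a * e * sg δ p (V.L (.of δ.y)) * b) -
        V.t.τ (a * V.L (.of δ.y)) * V.t.τ e * V.t.τ b‖ ≤ 2 * (A * E * B) := by
    intro p a e b A E B h0 h1 h2 h3
    refine (norm_sub_le _ _).trans ?_
    have : ‖V.t.τ (a * V.L (.of δ.y)) * V.t.τ e * V.t.τ b‖ ≤ A * E * B := by
      rw [norm_mul, norm_mul]
      have := V.t.n2_nonneg a
      have := V.t.n2_nonneg e
      gcongr
      · exact mul_nonneg (by linarith) (by linarith)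
      · linarith
      · exact (V.t.τ_le_n2 _).trans ((n2_mul_L _ _).trans h1)
      · exact (V.t.τ_le_n2 _).trans h2
      · exact (V.t.τ_le_n2 _).trans h3
    linarith
  refine tendsto_ext (fun p a => V.t.τ (sg δ p a * e * sg δ p (V.L (.of δ.y)) * b) -
      V.t.τ (a * V.L (.of δ.y)) * V.t.τ e * V.t.τ b)
    (fun p => ⟨fun x y => by simp only [sg, mul_add, add_mul, map_add]; ring, fun c x => by
      simp only [sg, smul_mul_assoc, mul_smul_comm, map_smul, smul_eq_mul]; ring⟩)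
    (K := 2 * (‖e‖ * ‖b‖)) (by positivity) (fun p a => ?_) (fun g hg => ?_) ha
  · refine (bd p a e b _ _ _ ?_ le_rfl (V.t.n2_le _) (V.t.n2_le _)).trans_eq (by ring)
    rw [mul_assoc, mul_assoc]
    refine (τ_mul_le _ _).trans ?_
    rw [mul_comm, mul_assoc]
    gcongr
    · exact V.t.n2_nonneg _
    · exact n2_sg δ p a
    · refine (norm_mul_le _ _).trans ?_
      gcongr
      exact (norm_mul_le _ _).trans (mul_le_of_le_one_left (norm_nonneg _) (hy p))
  have hg' : ∀ p, ‖sg δ p (V.L g)‖ ≤ 1 := fun p => (norm_sg δ p _).trans_eq (norm_L _)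
  refine tendsto_ext (fun p e => V.t.τ (sg δ p (V.L g) * e * sg δ p (V.L (.of δ.y)) * b) -
      V.t.τ (V.L g * V.L (.of δ.y)) * V.t.τ e * V.t.τ b)
    (fun p => ⟨fun x y => by simp only [mul_add, add_mul, map_add]; ring, fun c x => by
      simp only [smul_mul_assoc, mul_smul_comm, map_smul, smul_eq_mul]; ring⟩)
    (K := 2 * ‖b‖) (by positivity) (fun p e => ?_) (fun k hk => ?_) he
  · refine (bd p _ e b 1 _ _ ?_ ((V.t.n2_le _).trans_eq (norm_L _)) le_rfl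
      (V.t.n2_le _)).trans_eq (by ring)
    rw [mul_assoc]
    refine (τ_mul_le _ _).trans ?_
    rw [mul_comm]
    gcongr
    · exact mul_nonneg zero_le_one (V.t.n2_nonneg _)
    · exact (V.t.n2_mul_left _ _).trans (mul_le_mul_of_nonneg_right (hg' p) (V.t.n2_nonneg _))
    · exact (norm_mul_le _ _).trans (mul_le_of_le_one_left (norm_nonneg _) (hy p))
  refine tendsto_ext (fun p b => V.t.τ (sg δ p (V.L g) * V.L k * sg δ p (V.L (.of δ.y)) * b) -
      V.t.τ (V.L g * V.L (.of δ.y)) * V.t.τ (V.L k) * V.t.τ b)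
    (fun p => ⟨fun x y => by simp only [mul_add, add_mul, map_add]; ring, fun c x => by
      simp only [smul_mul_assoc, mul_smul_comm, map_smul, smul_eq_mul]; ring⟩)
    (K := 2) (by positivity) (fun p b => ?_) (fun n hn => ?_) hb
  · refine (bd p _ _ b 1 1 _ ?_ ((V.t.n2_le _).trans_eq (norm_L _))
      ((V.t.n2_le _).trans_eq (norm_L _)) le_rfl).trans_eq (by ring)
    rw [V.t.τ_comm]
    refine (τ_mul_le _ _).trans ?_
    simp only [sg_L, ← map_mul, norm_L, mul_one, le_refl]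
  obtain ⟨R, hR⟩ := Dat.mix_grp ((mem_ker δ).1 hg) ((mem_ker δ).1 hn) ((mem_ker δ).1 hk)
  refine tendsto_const_nhds.congr' ?_
  filter_upwards [eventually_ge_atTop R] with p hp
  simp only [sg_L, ← map_mul, V.τL]
  by_cases h : δ.sh p g * k * δ.sh p (.of δ.y) * n = 1
  · obtain ⟨h1, h2, h3⟩ := hR p hp h
    rw [if_pos h, if_pos h1, if_pos h2, if_pos h3]; simp
  · rw [if_neg h]
    split_ifs with h1 h2 h3 <;> try simp
    refine h ?_
    rw [h2, h3, eq_inv_of_mul_eq_one_left h1, Dat.sh, Dat.sh]; group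

/-- the product of shifted copies -/
noncomputable def ww (z : V.C) (p : ℕ → ℤ) (k : ℕ) : V.C := pr (fun j => sg δ (p j) z) k

theorem ww_L (p : ℕ → ℤ) (k : ℕ) : ww δ (V.L (.of δ.y)) p k = V.L (δ.wd p k) := by
  rw [Dat.wd, map_pr V.L (map_one _) fun _ => map_mul _ _ _]; simp only [ww, sg_L]

theorem Cl_ww {z : V.C} (hz : z ∈ Cl V δ.deg.ker) (p : ℕ → ℤ) (k : ℕ) :
    ww δ z p k ∈ Cl V δ.deg.ker := by
  induction k with
  | zero => exact Cl_of_Sp (by simpa [ww, pr] using mem_Sp (V := V) (one_mem δ.deg.ker))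
  | succ k ih => exact Cl_mul ih (Cl_sg δ _ hz)

theorem spread_update {R : ℤ} {p : ℕ → ℤ} {k : ℕ} (h : Dat.Spread R p k) :
    ∀ᶠ q in atTop, Dat.Spread R (Function.update p k q) (k + 1) := by
  have h1 : ∀ᶠ q : ℤ in atTop, ∀ j ∈ Finset.range k, p j + R < q :=
    (eventually_all_finset _).2 fun j _ => eventually_gt_atTop _
  filter_upwards [h1, eventually_gt_atTop R] with q h1 h2
  have h3 : ∀ l, Dat.ok (k + 1) l → l ≠ some k → Dat.ok k l ∧
      Dat.PP (Function.update p k q) l = Dat.PP p l ∧ Dat.PP p l + R < q := by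
    rintro (_ | j) hl hk
    · exact ⟨fun _ e => (by cases e), rfl, by simpa [Dat.PP]⟩
    · have h4 : j ≠ k := by simpa using hk
      have h5 : j < k := by have := hl j rfl; omega
      exact ⟨fun _ e => (by cases e; exact h5), by simp [Dat.PP, h4], h1 j (by simpa)⟩
  have h4 : Dat.PP (Function.update p k q) (some k) = q := by simp [Dat.PP]
  intro a b ha hb hab
  by_cases e1 : a = some k
  · obtain ⟨-, h5, h6⟩ := h3 b hb (by rw [← e1]; exact hab.symm)
    rw [e1, h4, h5, lt_abs]; omega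
  · obtain ⟨h5, h6, h7⟩ := h3 a ha e1
    by_cases e2 : b = some k
    · rw [e2, h4, h6, lt_abs]; omega
    · obtain ⟨h8, h9, -⟩ := h3 b hb e2
      rw [h6, h9]; exact h a b h5 h8 hab

theorem exists_pos {I : Type} [Finite I] (a z : I → V.C) (ha : ∀ i, a i ∈ Cl V δ.deg.ker)
    (hz : ∀ i, z i ∈ Cl V δ.deg.ker) (hμ : ∀ i, ‖V.t.τ (star (z i) * V.L (.of δ.y))‖ ≤ 1)
    (R : ℤ) (k : ℕ) (b : I → V.C) (hb : ∀ i, b i ∈ Cl V δ.deg.ker) (hb1 : ∀ i, ‖V.t.τ (b i)‖ ≤ 1)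
    (h0 : k = 0 → ∀ i, b i = 1) {ε : ℝ} (hε : 0 < ε) : ∃ p, Dat.Spread R p k ∧
      ∀ i, ‖V.t.τ (star (ww δ (z i) p k) * a i * ww δ (V.L (.of δ.y)) p k * b i) -
        V.t.τ (star (z i) * V.L (.of δ.y)) ^ k * V.t.τ (a i) * V.t.τ (b i)‖ < ε := by
  have hy : V.L (.of δ.y) ∈ Cl V δ.deg.ker := Cl_of_Sp (mem_Sp ((mem_ker δ).2 δ.dg_y))
  induction k generalizing b ε with
  | zero =>
    refine ⟨fun _ => 0, fun k l hk hl hkl => ?_, fun i => by simpa [ww, pr, h0, V.t.τ_one]⟩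
    cases k with
    | some j => exact absurd (hk j rfl) (by omega)
    | none => cases l with
      | some j => exact absurd (hl j rfl) (by omega)
      | none => exact absurd rfl hkl
  | succ k ih =>
    obtain ⟨p, hp, h1⟩ := ih (fun _ => 1) (fun _ => Cl_ww δ hy (fun _ => 0) 0)
      (fun _ => by simp [V.t.τ_one]) (fun _ _ => rfl) (half_pos hε)
    have h2 := fun i => Metric.tendsto_nhds.1 (mix4 δ (Cl_star (hz i))
      (Cl_mul (Cl_mul (Cl_star (Cl_ww δ (hz i) p k)) (ha i)) (Cl_ww δ hy p k)) (hb i)) _ (half_pos hε)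
    obtain ⟨q, h3, h4⟩ := ((spread_update hp).and (eventually_all.2 h2)).exists
    refine ⟨_, h3, fun i => ?_⟩
    have e : ∀ z : V.C, ww δ z (Function.update p k q) (k + 1) = ww δ z p k * sg δ q z := fun z => by
      rw [ww, pr, Function.update_self, pr_congr fun j hj => by rw [Function.update_of_ne hj.ne]]; rfl
    have h5 := h4 i
    have h6 := h1 i
    rw [dist_zero_right] at h5
    rw [mul_one, V.t.τ_one, mul_one] at h6
    rw [e, e, star_mul, star_sg]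
    simp only [mul_assoc] at h5 h6 ⊢
    generalize V.t.τ (sg δ q _ * _) = A at *
    generalize V.t.τ (star (ww δ (z i) p k) * _) = B at *
    have h7 := hμ i
    have h8 := hb1 i
    generalize V.t.τ (star (z i) * _) = μ at *
    generalize V.t.τ (b i) = β at *
    have e2 : A - μ ^ (k + 1) * (V.t.τ (a i) * β) =
        (A - μ * (B * β)) + μ * β * (B - μ ^ k * V.t.τ (a i)) := by ring
    rw [e2]
    refine (norm_add_le _ _).trans_lt ?_
    have : ‖μ * β * (B - μ ^ k * V.t.τ (a i))‖ ≤ 1 * 1 * (ε / 2) := by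
      rw [norm_mul, norm_mul]; gcongr
    linarith

end Crest.Agent.FG
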