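import Crest.Agent.FG.Dv
/-! One step of the descent. -/
set_option autoImplicit false
set_option linter.deprecated false
set_option linter.unusedSimpArgs false
set_option linter.unusedVariables false
set_option linter.unusedSectionVars false
set_option linter.style.haveILetI false
namespace Crest.Agent.FG
open scoped InnerProductSpace ComplexConjugate Nat
open Filter Topology Crest.Agent.Nk Complex

section
variable {E : Type} [NormedAddCommGroup E] [InnerProductSpace ℂ E]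

theorem sq_bd (ξ A B R : E) {K t : ℝ} (h0 : 0 ≤ t) (h1 : t ≤ 1) (hξ : ‖ξ‖ ≤ K) (hA : ‖A‖ ≤ K)
    (hB : ‖B‖ ≤ K) (hR : ‖R‖ ≤ K * t ^ 3) :
    ‖ξ + (t : ℂ) • A + ((t : ℂ) ^ 2 • B + R)‖ ^ 2 ≤
      ‖ξ + (t : ℂ) • A‖ ^ 2 + 2 * t ^ 2 * (⟪ξ, B⟫_ℂ).re + 10 * K ^ 2 * t ^ 3 := by
  have hK : 0 ≤ K := (norm_nonneg _).trans hξ
  have a1 : ‖ξ + (t : ℂ) • A‖ ≤ 2 * K := (norm_add_le _ _).trans (by
    rw [norm_smul, norm_real, Real.norm_of_nonneg h0]; nlinarith [norm_nonneg A])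
  have a2 : ‖(t : ℂ) ^ 2 • B + R‖ ≤ 2 * K * t ^ 2 := (norm_add_le _ _).trans (by
    rw [norm_smul, norm_pow, norm_real, Real.norm_of_nonneg h0]
    nlinarith [mul_le_mul_of_nonneg_left hB (sq_nonneg t), mul_nonneg hK (sq_nonneg t)])
  have a3 : (⟪A, B⟫_ℂ).re ≤ K * K := (re_le_norm _).trans ((norm_inner_le_norm _ _).trans (by gcongr))
  have a4 : (⟪ξ + (t : ℂ) • A, R⟫_ℂ).re ≤ 2 * K * (K * t ^ 3) :=
    (re_le_norm _).trans ((norm_inner_le_norm _ _).trans (by gcongr))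
  have a5 : (⟪ξ + (t : ℂ) • A, (t : ℂ) ^ 2 • B⟫_ℂ).re =
      t ^ 2 * (⟪ξ, B⟫_ℂ).re + t ^ 3 * (⟪A, B⟫_ℂ).re := by
    simp only [inner_add_left, inner_smul_left, inner_smul_right, conj_ofReal, ← ofReal_pow, mul_add,
      add_re, re_ofReal_mul]; ring
  have a6 : ‖(t : ℂ) ^ 2 • B + R‖ ^ 2 ≤ (2 * K * t ^ 2) ^ 2 := by gcongr
  rw [@norm_add_sq ℂ, inner_add_right, map_add]
  simp only [RCLike.re_to_complex, a5]
  have a7 := mul_le_mul_of_nonneg_left a3 (pow_nonneg h0 3)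
  have a8 : K ^ 2 * t ^ 3 * t ≤ K ^ 2 * t ^ 3 := mul_le_of_le_one_right (by positivity) h1
  nlinarith

theorem par4 (ξ P M : E) (t : ℝ) :
    ‖ξ + (t : ℂ) • ((1 : ℂ) • P + conj (1 : ℂ) • M)‖ ^ 2 + ‖ξ + (t : ℂ) • (I • P + conj I • M)‖ ^ 2 +
      ‖ξ + (t : ℂ) • ((-1 : ℂ) • P + conj (-1 : ℂ) • M)‖ ^ 2 +
      ‖ξ + (t : ℂ) • ((-I) • P + conj (-I) • M)‖ ^ 2 = 4 * ‖ξ‖ ^ 2 + 4 * t ^ 2 * (‖P‖ ^ 2 + ‖M‖ ^ 2) := by
  have h1 := parallelogram_law_with_norm ℂ ξ ((t : ℂ) • (P + M))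
  have h2 := parallelogram_law_with_norm ℂ ξ ((t : ℂ) • I • (P - M))
  have h3 := parallelogram_law_with_norm ℂ P M
  have e1 : (1 : ℂ) • P + conj (1 : ℂ) • M = P + M := by simp
  have e2 : I • P + conj I • M = I • (P - M) := by simp [smul_sub, sub_eq_add_neg]
  have e3 : ξ + (t : ℂ) • ((-1 : ℂ) • P + conj (-1 : ℂ) • M) = ξ - (t : ℂ) • (P + M) := by
    simp; module
  have e4 : ξ + (t : ℂ) • ((-I) • P + conj (-I) • M) = ξ - (t : ℂ) • I • (P - M) := by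
    simp; module
  rw [e1, e2, e3, e4]
  simp only [norm_smul, norm_I, norm_real, Real.norm_eq_abs, one_mul, ← pow_two, mul_pow,
    sq_abs] at h1 h2 h3
  linear_combination h1 + h2 + 2 * t ^ 2 * h3

end

variable {ι : Type} [DecidableEq ι] {V : VN (FreeGroup ι)} (δ : Dat ι)

theorem step_letter {θ : V.C ≃⋆ₐ[ℂ] V.C} (hθ : ∀ a, V.t.τ (θ a) = V.t.τ a) (p : ℕ → ℤ) (D : ℕ)
    (a : ι) (X : ℂ → V.C) {t : ℝ} (h0 : 0 ≤ t) (h1 : t ≤ 1)
    (hX : ∀ l, ‖l‖ = 1 → ‖X l - (V.L (.of a) + (t : ℂ) • dl2 V δ p D l (V.L (.of a)) +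
        (t : ℂ) ^ 2 • ((1 / 2 : ℂ) • dl2 V δ p D l (dl2 V δ p D l (V.L (.of a)))))‖ ≤
          2 * (6 * D + 6) ^ 3 * t ^ 3)
    (z P M : V.C) (hz : V.t.n2 z ≤ 2) (hP : V.t.n2 P ≤ 2) (hM : V.t.n2 M ≤ 2) (F : ℂ → ℝ)
    (hF : ∀ l, F l = V.t.n2 (θ (X l) - (z + (t : ℂ) • (l • P + conj l • M))) ^ 2) :
    F 1 + F I + F (-1) + F (-I) ≤ 4 * V.t.n2 (θ (V.L (.of a)) - z) ^ 2 +
      4 * t ^ 2 * (V.t.n2 (θ (dd V δ p D 1 (V.L (.of a))) - P) ^ 2 +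
        V.t.n2 (θ (dd V δ p D (-1) (V.L (.of a))) - M) ^ 2) +
      4 * t ^ 2 * (V.t.τ (θ.symm (star (θ (V.L (.of a)) - z)) * ZZ V δ p D a)).re +
      160 * (6 * D + 6) ^ 6 * t ^ 3 := by
  set r : ℝ := 6 * D + 6 with hr
  have hr6 : 6 ≤ r := by have := D.cast_nonneg (α := ℝ); linarith
  have hr2 : 6 * r ≤ r ^ 2 := by nlinarith
  have hr3 : 6 * r ^ 2 ≤ r ^ 3 := by nlinarith
  have hn : ∀ u, ‖vec V (θ u)‖ ≤ ‖u‖ := fun u => by rw [norm_vec, n2_map hθ]; exact V.t.n2_le u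
  let B : ℂ → V.t.Y := fun l => vec V (θ ((1 / 2 : ℂ) • dl2 V δ p D l (dl2 V δ p D l (V.L (.of a)))))
  set ξ := vec V (θ (V.L (.of a)) - z)
  set P' := vec V (θ (dd V δ p D 1 (V.L (.of a))) - P)
  set M' := vec V (θ (dd V δ p D (-1) (V.L (.of a))) - M)
  have key : ∀ l, ‖l‖ = 1 → F l ≤ ‖ξ + (t : ℂ) • (l • P' + conj l • M')‖ ^ 2 +
      2 * t ^ 2 * (⟪ξ, B l⟫_ℂ).re + 10 * (2 * r ^ 3) ^ 2 * t ^ 3 := by
    intro l hl
    have b1 := dl2_pow V δ p D hl a 1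
    have b2 := dl2_pow V δ p D hl a 2
    simp only [pow_two (dl2 _ _ _ _ _), Module.End.mul_apply, Nat.factorial_two, Nat.cast_ofNat,
      pow_one, Nat.factorial_one, Nat.cast_one, mul_one, ← hr] at b1 b2
    refine le_of_eq_of_le ?_ (sq_bd ξ _ (B l) _ h0 h1 ?_ ?_ ?_ ((hn _).trans (hX l hl)))
    · rw [hF, ← norm_vec]
      congr 2
      simp only [ξ, P', M', B, dl2, map_add, map_sub, map_smul, LinearMap.add_apply,
        LinearMap.smul_apply]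
      module
    · have := hn (V.L (.of a))
      rw [norm_L] at this
      simp only [ξ, map_sub]
      exact (norm_sub_le _ _).trans (by rw [norm_vec z]; linarith)
    · have e : l • P' + conj l • M' =
          vec V (θ (dl2 V δ p D l (V.L (.of a)))) - (l • vec V P + conj l • vec V M) := by
        simp only [P', M', dl2, map_add, map_sub, map_smul, LinearMap.add_apply, LinearMap.smul_apply]
        module
      have := norm_add_le (l • vec V P) (conj l • vec V M)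
      rw [norm_smul, norm_smul, RCLike.norm_conj, hl, norm_vec, norm_vec] at this
      rw [e]
      exact (norm_sub_le _ _).trans (by linarith [hn (dl2 V δ p D l (V.L (.of a)))])
    · refine (hn _).trans ?_
      rw [norm_smul]; norm_num; linarith
  have k1 := key 1 norm_one
  have k2 := key I norm_I
  have k3 := key (-1) (by simp)
  have k4 := key (-I) (by simp)
  have z1 := ZZ_eq V δ p D a norm_one
  have z2 := ZZ_eq V δ p D a (l := -1) (by simp)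
  rw [one_mul] at z1
  rw [neg_one_mul] at z2
  have z3 : B 1 + B I + B (-1) + B (-I) = (2 : ℂ) • vec V (θ (ZZ V δ p D a)) := by
    have y1 := congrArg (fun u => vec V (θ u)) z1
    have y2 := congrArg (fun u => vec V (θ u)) z2
    simp only [map_add, map_smul] at y1 y2
    simp only [B, map_smul]
    linear_combination (norm := module) (1 / 2 : ℂ) • y1 + (1 / 2 : ℂ) • y2
  have z4 := congrArg (fun u => (⟪ξ, u⟫_ℂ).re) z3
  simp only [inner_add_right, add_re, inner_smul_right, ξ] at z4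
  rw [inner_vec _ (θ (ZZ V δ p D a)), ← θ.apply_symm_apply (star _), ← map_mul, hθ] at z4
  simp only [mul_re, re_ofNat, im_ofNat, zero_mul, sub_zero] at z4
  have := par4 ξ P' M' t
  simp only [← norm_vec]
  nlinarith [sq_nonneg t]

theorem sq_sub (u v : V.C) (hu : V.t.n2 u = 1) {M : ℂ} (hM : ‖M‖ ≤ 1) {a b η : ℝ}
    (h1 : ‖V.t.τ (star u * v) - M * a‖ ≤ η) (h2 : V.t.n2 v ^ 2 ≤ b + η) :
    V.t.n2 (u - conj M • v) ^ 2 ≤ 1 - 2 * a * ‖M‖ ^ 2 + ‖M‖ ^ 2 * b + 3 * η := by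
  have h0 : 0 ≤ η := (norm_nonneg _).trans h1
  rw [← norm_vec, map_sub, map_smul, @norm_sub_sq ℂ, norm_smul, inner_smul_right, inner_vec, norm_vec,
    norm_vec, hu, RCLike.norm_conj, mul_pow]
  have e : conj M * V.t.τ (star u * v) =
      ((‖M‖ ^ 2 * a : ℝ) : ℂ) + conj M * (V.t.τ (star u * v) - M * a) := by
    push_cast; rw [← conj_mul']; ring
  have h3 : ‖conj M * (V.t.τ (star u * v) - M * a)‖ ≤ 1 * η := by
    rw [norm_mul, RCLike.norm_conj]; gcongr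
  have h4 := (neg_le_abs _).trans (abs_re_le_norm (conj M * (V.t.τ (star u * v) - M * a)))
  have h5 : ‖M‖ ^ 2 ≤ 1 := pow_le_one₀ (norm_nonneg _) hM
  rw [e]
  simp only [RCLike.re_to_complex, add_re, ofReal_re]
  nlinarith [mul_le_mul_of_nonneg_left h2 (sq_nonneg ‖M‖)]

/-- admissible automorphisms -/
structure Tm (θ : V.C ≃⋆ₐ[ℂ] V.C) : Prop where
  tr : ∀ a, V.t.τ (θ a) = V.t.τ a
  fix : ∀ a, a ≠ δ.y ∧ a ≠ δ.c → θ (V.L (.of a)) = V.L (.of a)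
  deg : ∀ a ∈ Cl V δ.deg.ker, θ a ∈ Cl V δ.deg.ker

theorem n2_unit {u : V.C} (h : star u * u = 1) : V.t.n2 u = 1 := by
  have := V.t.τ_star_self u
  rw [h, V.t.τ_one] at this
  exact (pow_eq_one_iff_of_nonneg (V.t.n2_nonneg _) two_ne_zero).1 (by exact_mod_cast this.symm)

theorem n2_sub_sq (a b : V.C) :
    V.t.n2 (a - b) ^ 2 = V.t.n2 a ^ 2 - 2 * (V.t.τ (star a * b)).re + V.t.n2 b ^ 2 := by
  rw [← norm_vec, map_sub, @norm_sub_sq ℂ, inner_vec]; rfl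

theorem arith {D κ t η s m ρ A B zc zy r a1 a2 a3 a4 b1 b2 b3 b4 : ℝ} (hD : 0 < D) (hκ : 0 ≤ κ)
    (h0 : 0 ≤ t) (h1 : t ≤ 1) (hη : 0 < η) (hs0 : 0 ≤ s) (hs1 : s ≤ 1) (hre : m ≤ 1)
    (hρ : 1 - D * (2 - 2 * m) ≤ ρ) (q2 : B ≤ 1 - 2 * 1 * ρ + ρ * 1 + 3 * η)
    (q3 : A ≤ 1 - 2 * s ^ 2 * ρ + ρ * s ^ 2 + 3 * η) (hZc : zc + 2 * 1 * (1 - s) ≤ η)
    (hZy : zy + 2 * (1 / D) * (1 - m) ≤ η)
    (s1 : a1 + a2 + a3 + a4 ≤ 4 * (1 - s) + 4 * t ^ 2 * (A + B) + 4 * t ^ 2 * zc + 160 * r * t ^ 3)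
    (s2 : b1 + b2 + b3 + b4 ≤ 4 * (2 - 2 * m) + 4 * t ^ 2 * (1 / D + 1 / D) + 4 * t ^ 2 * zy +
      160 * r * t ^ 3)
    (k1 : 1 - s + κ * D * (2 - 2 * m) + t ^ 2 * (-(1 - s) ^ 2 + 2 * D * (2 - 2 * m) + 2 * κ) +
      (1 + κ * D) * 40 * r * t ^ 3 + (7 + κ * D) * η < a1 + κ * D * b1)
    (k2 : 1 - s + κ * D * (2 - 2 * m) + t ^ 2 * (-(1 - s) ^ 2 + 2 * D * (2 - 2 * m) + 2 * κ) +
      (1 + κ * D) * 40 * r * t ^ 3 + (7 + κ * D) * η < a2 + κ * D * b2)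
    (k3 : 1 - s + κ * D * (2 - 2 * m) + t ^ 2 * (-(1 - s) ^ 2 + 2 * D * (2 - 2 * m) + 2 * κ) +
      (1 + κ * D) * 40 * r * t ^ 3 + (7 + κ * D) * η < a3 + κ * D * b3)
    (k4 : 1 - s + κ * D * (2 - 2 * m) + t ^ 2 * (-(1 - s) ^ 2 + 2 * D * (2 - 2 * m) + 2 * κ) +
      (1 + κ * D) * 40 * r * t ^ 3 + (7 + κ * D) * η < a4 + κ * D * b4) : False := by
  have f1 : A + B + zc ≤ -(1 - s) ^ 2 + 2 * D * (2 - 2 * m) + 7 * η := by
    have : 0 ≤ D * (2 - 2 * m) := by nlinarith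
    have h5 : s ^ 2 ≤ 1 := pow_le_one₀ hs0 hs1
    nlinarith [mul_le_mul_of_nonneg_left hρ (sq_nonneg s)]
  have f2 : zy ≤ η := by
    have : 0 ≤ 2 * (1 / D) * (1 - m) := by have := sub_nonneg.2 hre; positivity
    linarith
  have hκD : 0 ≤ κ * D := by positivity
  have s3 := mul_le_mul_of_nonneg_left s2 hκD
  have e1 : κ * D * (1 / D) = κ := by field_simp
  have t1 : t ^ 2 ≤ 1 := pow_le_one₀ h0 h1
  have t2 := mul_le_mul_of_nonneg_left f1 (sq_nonneg t)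
  have t3 := mul_le_mul_of_nonneg_left f2 (mul_nonneg hκD (sq_nonneg t))
  have t4 := mul_le_mul_of_nonneg_right t1 hη.le
  have t5 := mul_le_mul_of_nonneg_left t4 hκD
  have e2 : t ^ 2 * (κ * D * (1 / D)) = t ^ 2 * κ := by rw [e1]
  linarith

theorem step (H : Subgroup (FreeGroup ι)) (hx : .of δ.x ∈ H) (hy : .of δ.y ∈ H) {D : ℕ} (hD : 0 < D)
    {κ : ℝ} (hκ : 0 ≤ κ) {t : ℝ} (h0 : 0 ≤ t) (ht : t * (12 * D + 12) < 1) {θ : V.C ≃⋆ₐ[ℂ] V.C}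
    (hθ : Tm δ θ) {q : V.C} (hq : q ∈ Sp V (δ.deg.ker ⊓ H : Subgroup _))
    (hn : V.t.τ (star q * θ (V.L (.of δ.c))) = (V.t.n2 q ^ 2 : ℝ)) {η : ℝ} (hη : 0 < η) (hη1 : η ≤ 1) :
    ∃ θ' q', Tm δ θ' ∧ q' ∈ Sp V (δ.deg.ker ⊓ H : Subgroup _) ∧
      V.t.n2 (θ' (V.L (.of δ.c)) - q') ^ 2 + κ * D * V.t.n2 (θ' (V.L (.of δ.y)) - V.L (.of δ.y)) ^ 2 ≤
      V.t.n2 (θ (V.L (.of δ.c)) - q) ^ 2 + κ * D * V.t.n2 (θ (V.L (.of δ.y)) - V.L (.of δ.y)) ^ 2 +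
        t ^ 2 * (-(V.t.n2 (θ (V.L (.of δ.c)) - q) ^ 2) ^ 2 +
          2 * D * V.t.n2 (θ (V.L (.of δ.y)) - V.L (.of δ.y)) ^ 2 + 2 * κ) +
        (1 + κ * D) * 40 * (6 * D + 6) ^ 6 * t ^ 3 + (7 + κ * D) * η := by
  have hD' : (0 : ℝ) < D := by exact_mod_cast hD
  have h1 : t ≤ 1 := by nlinarith
  have hu : ∀ g, star (θ (V.L g)) * θ (V.L g) = 1 := fun g => by
    rw [← map_star, ← map_mul, V.st, L_inv_mul, map_one]
  have hu' : ∀ g, θ (V.L g) * star (θ (V.L g)) = 1 := fun g => by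
    rw [← map_star, ← map_mul, V.st, L_mul_inv, map_one]
  have hL : ∀ g, V.t.n2 (V.L g) = 1 := fun g => n2_unit (by rw [V.st, L_inv_mul])
  have hk : ∀ g, δ.dg g = 0 → V.L g ∈ Cl V δ.deg.ker := fun g hg => Cl_of_Sp (mem_Sp ((mem_ker δ).2 hg))
  have hqk : q ∈ Cl V δ.deg.ker := Cl_of_Sp (Sp_mono (fun _ h => h.1) hq)
  obtain ⟨c, hc⟩ : ∃ c, c = θ (V.L (.of δ.c)) := ⟨_, rfl⟩
  obtain ⟨y, hy'⟩ : ∃ y, y = θ (V.L (.of δ.y)) := ⟨_, rfl⟩
  obtain ⟨s, hs⟩ : ∃ s, s = V.t.n2 q ^ 2 := ⟨_, rfl⟩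
  obtain ⟨μ, hμ⟩ : ∃ μ, μ = V.t.τ (star y * V.L (.of δ.y)) := ⟨_, rfl⟩
  have hck : c ∈ Cl V δ.deg.ker := hc ▸ hθ.deg _ (hk _ δ.dg_c)
  have hyk : y ∈ Cl V δ.deg.ker := hy' ▸ hθ.deg _ (hk _ δ.dg_y)
  have hc1 : star c * c = 1 := hc ▸ hu _
  have hy1 : star y * y = 1 := hy' ▸ hu _
  rw [← hc, ← hs] at hn
  have hn' : V.t.τ (star c * q) = s := by
    rw [← star_star q, ← star_mul, V.t.τ_star, hn, conj_ofReal]
  have hs0 : 0 ≤ s := hs ▸ sq_nonneg _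
  have he : V.t.n2 (c - q) ^ 2 = 1 - s := by rw [n2_sub_sq, n2_unit hc1, hn', ofReal_re, ← hs]; ring
  have hs1 : s ≤ 1 := by linarith [sq_nonneg (V.t.n2 (c - q))]
  have hm : V.t.n2 (y - V.L (.of δ.y)) ^ 2 = 2 - 2 * μ.re := by
    rw [n2_sub_sq, n2_unit hy1, hL, hμ]; ring
  have hμ1 : ‖μ‖ ≤ 1 := by simpa [hμ, n2_unit hy1, hL] using V.t.τ_cs y (V.L (.of δ.y))
  have hρ : 1 - D * (2 - 2 * μ.re) ≤ ‖μ ^ D‖ ^ 2 := by
    have := one_add_mul_le_pow (a := ‖μ‖ - 1) (by linarith [norm_nonneg μ]) (D * 2)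
    rw [add_sub_cancel, pow_mul, ← norm_pow] at this
    push_cast at this
    nlinarith [re_le_norm μ]
  have hρ1 : ‖μ ^ D‖ ≤ 1 := by rw [norm_pow]; exact pow_le_one₀ (norm_nonneg _) hμ1
  have hqq : V.t.τ (star q * q) = s := by rw [V.t.τ_star_self, hs]
  -- choice of the positions
  obtain ⟨R, hR⟩ := (spr_ev D 0).and
    ((Metric.tendsto_nhds.1 (tendsto_ZZ V δ hD (.inl rfl) (θ.symm (star (c - q)))) η hη).and
      (Metric.tendsto_nhds.1 (tendsto_ZZ V δ hD (.inr rfl) (θ.symm (star (y - V.L (.of δ.y))))) η hη))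
  obtain ⟨p, hp, hpos⟩ := exists_pos δ ![1, star c * q, star q * q] ![y, y, V.L (.of δ.y)]
    (by simp [Fin.forall_fin_succ, Cl_mul, Cl_star, hck, hqk, map_one V.L ▸ hk 1 δ.dg_one])
    (by simp [Fin.forall_fin_succ, hyk, hk]) (by
      simp [Fin.forall_fin_succ, ← hμ, hμ1, V.st, -map_inv, L_inv_mul, V.t.τ_one]) R D
    ![1, q * star c, q * star q]
    (by simp [Fin.forall_fin_succ, Cl_mul, Cl_star, hck, hqk, map_one V.L ▸ hk 1 δ.dg_one])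
    (by simp [Fin.forall_fin_succ, V.t.τ_one, V.t.τ_comm q, hn', hqq, abs_of_nonneg hs0, hs1])
    (fun h => absurd h hD.ne') hη
  obtain ⟨hp0, hZc, hZy⟩ := hR p hp
  have p0 := (hpos 0).le
  have p1 := (hpos 1).le
  have p2 := (hpos 2).le
  have hw : ww δ y p D = θ (V.L (δ.wd p D)) := by
    have hxx : ∀ n : ℤ, θ (V.L (.of δ.x ^ n)) = V.L (.of δ.x ^ n) := fun n =>
      DFunLike.congr_fun (f := ((θ : V.C →* V.C).comp V.L).comp (zpowersHom _ (.of δ.x)))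
        (g := V.L.comp (zpowersHom _ (.of δ.x))) (MonoidHom.ext_mint
          (by simpa using hθ.fix δ.x ⟨δ.xy.symm, δ.xc.symm⟩)) (.ofAdd n)
    rw [← ww_L, ww, ww, map_pr θ (map_one θ) fun _ => map_mul θ _ _]
    simp only [sg, map_mul, hxx, hy']
  simp only [Matrix.cons_val_zero, Matrix.cons_val_one, Matrix.cons_val, ww_L, hw, ← hμ, mul_one,
    V.t.τ_one, V.t.τ_comm q, hn', hqq, τ_LL', if_true, one_pow, one_mul] at p0 p1 p2
  obtain ⟨w, hw⟩ : ∃ w, w = V.L (δ.wd p D) := ⟨_, rfl⟩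
  have hw1 : V.t.n2 w = 1 := hw ▸ hL _
  have hwu : star (θ w) * θ w = 1 := hw ▸ hu _
  have hwH : w ∈ Sp V (δ.deg.ker ⊓ H : Subgroup _) := hw ▸ mem_Sp ⟨(mem_ker δ).2 (δ.dg_wd _ _),
    pr_mem H (fun j => mul_mem (mul_mem (zpow_mem hx _) hy) (zpow_mem hx _)) D⟩
  have d1 : θ (dd V δ p D 1 (V.L (.of δ.c))) = I • (c * θ w * c) := by
    rw [(dd_der V δ p D 1).of, vv_c]; simp [Dat.WW, hc, hw]
  have d2 : θ (dd V δ p D (-1) (V.L (.of δ.c))) = I • star (θ w) := by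
    rw [(dd_der V δ p D (-1)).of, vv_c, smul_mul_assoc, ← map_mul, map_smul, hw, ← map_star, V.st]
    simp [Dat.WW]
  rw [← hw] at p0 p1 p2
  have q1 : V.t.n2 (q * w * q) ^ 2 ≤ s ^ 2 + η := by
    have e : V.t.τ (star w * (star q * q) * w * (q * star q)) = (V.t.n2 (q * w * q) ^ 2 : ℝ) := by
      rw [← V.t.τ_star_self, ← mul_assoc, V.t.τ_comm _ (star q)]; simp only [star_mul, mul_assoc]
    rw [e, ← ofReal_mul, ← ofReal_sub, norm_real, Real.norm_eq_abs] at p2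
    linarith [le_abs_self (V.t.n2 (q * w * q) ^ 2 - s * s)]
  have q2 := sq_sub (θ w) w (n2_unit hwu) hρ1 (a := 1) (b := 1) (by simpa using p0)
    (by rw [hw1]; linarith)
  have q3 := sq_sub (c * θ w * c) (q * w * q) (n2_unit (by
    simp only [star_mul, mul_assoc]
    rw [← mul_assoc (star c) c, hc1, one_mul, ← mul_assoc (star (θ w)), hwu, one_mul, hc1])) hρ1
    (a := s ^ 2) (by
      refine le_of_eq_of_le ?_ p1
      congr 2
      · rw [← mul_assoc _ q (star c), V.t.τ_comm _ (star c)]; simp only [star_mul, mul_assoc]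
      · push_cast; ring) q1
  choose! β b1 b2 b3 b4 using fun l (hl : ‖l‖ = 1) => exists_beta V hD hp0 hl h0 ht
  obtain ⟨P, hP⟩ : ∃ P, P = I • conj (μ ^ D) • (q * w * q) := ⟨_, rfl⟩
  obtain ⟨M, hM⟩ : ∃ M, M = I • star (conj (μ ^ D) • w) := ⟨_, rfl⟩
  have s1 := step_letter δ hθ.tr p D δ.c (fun l => β l (V.L (.of δ.c))) h0 h1 (fun l hl => b4 l hl _)
    q P M (by nlinarith [V.t.n2_nonneg q]) (by
      rw [hP, V.t.n2_smul, V.t.n2_smul, norm_I, RCLike.norm_conj]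
      have : V.t.n2 (q * w * q) ≤ 2 := by nlinarith [V.t.n2_nonneg (q * w * q)]
      nlinarith [V.t.n2_nonneg (q * w * q), norm_nonneg (μ ^ D)]) (by
      rw [hM, V.t.n2_smul, V.t.n2_star, V.t.n2_smul, norm_I, RCLike.norm_conj, hw1]; linarith) _
    fun _ => rfl
  have s2 := step_letter δ hθ.tr p D δ.y (fun l => β l (V.L (.of δ.y))) h0 h1 (fun l hl => b4 l hl _)
    (V.L (.of δ.y)) 0 0 (by rw [hL]; norm_num) (by simp [V.t.n2_zero]) (by simp [V.t.n2_zero]) _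
    fun _ => rfl
  have y1 : ∀ e : ℤ, e = 1 ∨ e = -1 → V.t.n2 (θ (dd V δ p D e (V.L (.of δ.y)))) ^ 2 = 1 / D := by
    intro e he
    have := dd_norm (δ := δ) V hD hp0 he (.inr rfl)
    rw [V.t.τ_star_self, nn, if_neg δ.yc] at this
    rw [n2_map hθ.tr]; exact_mod_cast this
  simp only [smul_zero, add_zero, sub_zero, y1 1 (.inl rfl), y1 (-1) (.inr rfl), ← hy', hm] at s2
  have r1 : V.t.n2 (θ (dd V δ p D 1 (V.L (.of δ.c))) - P) =
      V.t.n2 (c * θ w * c - conj (μ ^ D) • (q * w * q)) := by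
    rw [d1, hP, ← smul_sub, V.t.n2_smul, norm_I, one_mul]
  have r2 : V.t.n2 (θ (dd V δ p D (-1) (V.L (.of δ.c))) - M) = V.t.n2 (θ w - conj (μ ^ D) • w) := by
    rw [d2, hM, ← smul_sub, V.t.n2_smul, norm_I, one_mul, ← star_sub, V.t.n2_star]
  rw [r1, r2, ← hc, he] at s1
  have hsy : ∀ u g, V.t.τ (θ.symm u * V.L g) = V.t.τ (u * θ (V.L g)) := fun u g => by
    rw [← hθ.tr, map_mul, θ.apply_symm_apply]
  rw [dist_zero_right, hsy] at hZc hZy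
  replace hZc := (re_le_norm _).trans hZc.le
  replace hZy := (re_le_norm _).trans hZy.le
  rw [← hc, star_sub, sub_mul, map_sub V.t.τ, hc1, hn, V.t.τ_one, ← star_sub] at hZc
  have hμ' : V.t.τ (star (V.L (.of δ.y)) * y) = conj μ := by
    rw [hμ, ← V.t.τ_star, star_mul, star_star]
  rw [← hy', star_sub, sub_mul, map_sub V.t.τ, hy1, hμ', V.t.τ_one, ← star_sub] at hZy
  simp only [nn, if_true, if_neg δ.yc, add_re, mul_re, re_ofNat, im_ofNat, ofReal_re, ofReal_im,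
    mul_zero, zero_mul, sub_zero, mul_im, add_zero, zero_add, sub_re, one_re, conj_re] at hZc hZy
  rw [← hc, ← hy', he, hm]
  have hre : μ.re ≤ 1 := (re_le_norm μ).trans hμ1
  generalize (V.t.τ (θ.symm (star (c - q)) * ZZ V δ p D δ.c)).re = zc at *
  generalize (V.t.τ (θ.symm (star (y - V.L (.of δ.y))) * ZZ V δ p D δ.y)).re = zy at *
  by_contra! hcon
  have hcon' := fun l (hl : ‖l‖ = 1) => hcon ((β l).trans θ) (q + (t : ℂ) • (l • P + conj l • M))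
    ⟨fun a => (hθ.tr _).trans (b1 l hl a), fun a ha => (congrArg θ (b2 l hl a ha)).trans (hθ.fix a ha),
      fun a ha => hθ.deg _ (b3 l hl a ha)⟩
    (add_mem hq (Submodule.smul_mem _ _ (add_mem (Submodule.smul_mem _ _ (hP ▸ Submodule.smul_mem _ _
      (Submodule.smul_mem _ _ (Sp_mul_mem (Sp_mul_mem hq hwH) hq)))) (Submodule.smul_mem _ _
      (hM ▸ Submodule.smul_mem _ _ (Sp_star (Submodule.smul_mem _ _ hwH)))))))
  have k1 := hcon' 1 norm_one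
  have k2 := hcon' I norm_I
  have k3 := hcon' (-1) (by simp)
  have k4 := hcon' (-I) (by simp)
  simp only [StarAlgEquiv.trans_apply] at k1 k2 k3 k4
  exact arith hD' hκ h0 h1 hη hs0 hs1 hre hρ q2 q3 hZc hZy s1 s2 k1 k2 k3 k4

end Crest.Agent.FG
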