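import Crest.Agent.FG.VN0
/-! Group von Neumann algebras as tracial systems. -/
set_option autoImplicit false
set_option linter.deprecated false
set_option linter.unusedSimpArgs false
set_option linter.unusedVariables false
set_option linter.unusedSectionVars false
set_option linter.style.haveILetI false
namespace Crest.Agent.FG
open scoped InnerProductSpace ComplexConjugate
open Filter Topology Crest.OpAlg Crest.Agent.Nk

variable {G : Type} [Group G] [DecidableEq G]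

theorem exists_unit {K : Type} [DecidableEq K] {E : Type} [NormedAddCommGroup E]
    [InnerProductSpace ℂ E] [CompleteSpace E] (v : K → E) (ho : Orthonormal ℂ v)
    (hd : Dense (Submodule.span ℂ (Set.range v) : Set E)) :
    ∃ U : ltwo K ≃ₗᵢ[ℂ] E, ∀ k, U (lp.single 2 k 1) = v k :=
  ⟨(HilbertBasis.mk ho (Submodule.dense_iff_topologicalClosure_eq_top.1 hd).ge).repr.symm,
    fun k => by rw [HilbertBasis.repr_symm_single, HilbertBasis.coe_mk]⟩

theorem exists_restrict {A B : Type} [CStarAlgebra A] [CStarAlgebra B] (e : A ≃⋆ₐ[ℂ] B)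
    (S : StarSubalgebra ℂ A) (T : StarSubalgebra ℂ B) (h : ∀ a, a ∈ S ↔ e a ∈ T) :
    ∃ Φ : S ≃⋆ₐ[ℂ] T, ∀ a, (Φ a).1 = e a.1 := by
  let f : S →⋆ₐ[ℂ] T := ((e : A →⋆ₐ[ℂ] B).comp S.subtype).codRestrict _ fun a => (h a.1).1 a.2
  have hf : Function.Bijective f := ⟨fun a b h => Subtype.ext (e.injective (congrArg Subtype.val h)),
    fun x => ⟨⟨e.symm x.1, (h _).2 (by simp)⟩, Subtype.ext (e.apply_symm_apply _)⟩⟩
  exact ⟨StarAlgEquiv.ofBijective f hf, fun _ => rfl⟩

theorem exists_iso {K : Type} [Group K] [DecidableEq K] (π : K →* MM G)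
    (hs : ∀ k, star (π k) = π k⁻¹) (hτ : ∀ k, (tG G).τ (π k) = if k = 1 then 1 else 0)
    (hg : Gen (tG G) π) :
    ∃ Φ : MM K ≃⋆ₐ[ℂ] MM G, (∀ k, Φ (LL K k) = π k) ∧ ∀ a, (tG G).τ (Φ a) = (tG K).τ a := by
  have ho : Orthonormal ℂ fun k => (π k).1 (dl 1) := by
    rw [orthonormal_iff_ite]
    intro k l
    have := (tG G).τ_star_mul (π k) (π l)
    rw [hs, ← map_mul π, hτ] at this
    simp only [inv_mul_eq_one] at this
    exact this.symm
  obtain ⟨U, hU⟩ := exists_unit _ ho ((gen_iff _ _).1 hg)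
  replace hU : ∀ k, U (dl k) = (π k).1 (dl 1) := hU
  obtain ⟨e, he0⟩ : ∃ e : (ltwo K →L[ℂ] ltwo K) ≃⋆ₐ[ℂ] (ltwo G →L[ℂ] ltwo G),
    ∀ a ξ, e a ξ = U (a (U.symm ξ)) := ⟨U.conjStarAlgEquiv, fun _ _ => rfl⟩
  have he : ∀ k, e (leftRegular k) = (π k).1 := by
    intro k
    have : (π k).1 ∘L (U : ltwo K →L[ℂ] ltwo G) = (U : ltwo K →L[ℂ] ltwo G) ∘L leftRegular k :=
      ext_dl fun l => by
        change (π k).1 (U (dl l)) = U (leftRegular k (dl l))
        rw [lr_dl, hU, hU, map_mul π]; rfl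
    ext1 ξ
    have h2 : (π k).1 (U (U.symm ξ)) = U (leftRegular k (U.symm ξ)) :=
      congrArg (fun T : ltwo K →L[ℂ] ltwo G => T (U.symm ξ)) this
    rw [he0, ← h2, U.apply_symm_apply]
  have hmem : ∀ a, a ∈ MM K ↔ e a ∈ MM G := by
    intro a
    refine ⟨fun ha => mem_MM.2 fun y hy => ?_, fun ha => mem_MM.2 fun y hy => ?_⟩
    · obtain ⟨z, rfl⟩ := EquivLike.surjective e y
      rw [← map_mul e, ← map_mul e, mem_MM.1 ha z fun k => EquivLike.injective e ?_]
      rw [map_mul e, map_mul e, he]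
      exact (mem_MM.1 (π k).2 _ hy).symm
    · refine EquivLike.injective e ?_
      rw [map_mul e, map_mul e]
      exact comm_of_gen π hs hg (e y) (fun k => by rw [← he, ← map_mul e, ← map_mul e, hy]) ⟨_, ha⟩
  obtain ⟨Φ, hΦ⟩ := exists_restrict e _ _ hmem
  refine ⟨Φ, fun k => Subtype.ext ((hΦ _).trans (he k)), fun a => ?_⟩
  have h1 : dl (1 : G) = U (dl 1) := by rw [hU, map_one π]; rfl
  change ⟪dl 1, (Φ a).1 (dl 1)⟫_ℂ = ⟪dl 1, a.1 (dl 1)⟫_ℂ
  rw [hΦ, he0, h1, U.symm_apply_apply, U.inner_map_map]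

/-- abstract properties of a group von Neumann algebra -/
structure VN (G : Type) [Group G] [DecidableEq G] where
  C : Type
  [i : CStarAlgebra C]
  t : TS C
  L : G →* C
  st : ∀ g, star (L g) = L g⁻¹
  τL : ∀ g, t.τ (L g) = if g = 1 then 1 else 0
  gen : Gen t L
  cpl : ∀ u : ℕ → C, (∀ n, u n ∈ unitary C) → (CauchySeq fun n => t.lam (u n) t.om) →
    ∃ v ∈ unitary C, Tendsto (fun n => t.lam (u n) t.om) atTop (𝓝 (t.lam v t.om))
  aut : ∀ π : G →* C, (∀ k, star (π k) = π k⁻¹) → (∀ k, t.τ (π k) = if k = 1 then 1 else 0) →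
    Gen t π → ∃ Φ : C ≃⋆ₐ[ℂ] C, (∀ k, Φ (L k) = π k) ∧ ∀ a, t.τ (Φ a) = t.τ a

attribute [instance] VN.i

variable (G) in
/-- the group von Neumann algebra -/
noncomputable def vn : VN G where
  C := MM G
  t := tG G
  L := LL G
  st g := Subtype.ext (star_lr g)
  τL := τ_LL
  gen := gen_LL
  cpl := complete_unitary
  aut := exists_iso

end Crest.Agent.FG
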