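import Crest.Agent.Nk.KT
import Crest.Prelude.Def_GroupVNA
/-! Group von Neumann algebras as tracial systems. -/
set_option autoImplicit false
set_option linter.deprecated false
set_option linter.unusedSimpArgs false
set_option linter.unusedVariables false
set_option linter.unusedSectionVars false
set_option linter.style.haveILetI false
namespace Crest.Agent.FG
open scoped InnerProductSpace ComplexConjugate
open Filter Topology Crest.OpAlg Crest.Agent.Nk

/-- the span of `π` is dense for the 2-norm -/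
def Gen {C K : Type} [CStarAlgebra C] (t : TS C) (π : K → C) : Prop :=
  ∀ z, ∀ ε > 0, ∃ n ∈ Submodule.span ℂ (Set.range π), t.n2 (z - n) < ε

variable {G : Type} [Group G] [DecidableEq G]

/-- basis vectors -/
noncomputable def dl (g : G) : ltwo G := lp.single 2 g 1

theorem inner_dl (g : G) (ξ : ltwo G) : ⟪dl g, ξ⟫_ℂ = ξ g := by
  rw [dl, lp.inner_single_left]; simp

theorem dl_apply (g h : G) : dl g h = if h = g then 1 else 0 := by
  simp [dl, lp.single_apply, Pi.single_apply]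

theorem ext_dl {E : Type} [NormedAddCommGroup E] [NormedSpace ℂ E] {a b : ltwo G →L[ℂ] E}
    (h : ∀ g, a (dl g) = b (dl g)) : a = b := by
  refine lp.ext_continuousLinearMap (by norm_num) fun g => ?_
  ext
  exact h g

theorem lr_apply (g : G) (ξ : ltwo G) (h : G) : leftRegular g ξ h = ξ (g⁻¹ * h) := rfl

theorem lr_dl (g h : G) : leftRegular g (dl h) = dl (g * h) := by
  ext k; simp [lr_apply, dl_apply, inv_mul_eq_iff_eq_mul]

/-- right translations -/
noncomputable def rt (g : G) : ltwo G →L[ℂ] ltwo G :=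
  ((ltwoReindex (Equiv.mulRight g) : ltwo G ≃ₗᵢ[ℂ] ltwo G) : ltwo G →L[ℂ] ltwo G)

theorem rt_apply (g : G) (ξ : ltwo G) (h : G) : rt g ξ h = ξ (h * g) := rfl

theorem rt_dl (g h : G) : rt g (dl h) = dl (h * g⁻¹) := by
  ext k; simp [rt_apply, dl_apply, eq_mul_inv_iff_mul_eq]

theorem norm_rt (g : G) (ξ : ltwo G) : ‖rt g ξ‖ = ‖ξ‖ :=
  (ltwoReindex (Equiv.mulRight g)).norm_map ξ

theorem lr_mul (g h : G) : leftRegular (g * h) = leftRegular g * leftRegular h :=
  ext_dl fun k => by simp [lr_dl, mul_assoc]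

theorem lr_one : leftRegular (1 : G) = 1 := ext_dl fun k => by simp [lr_dl]

theorem star_lr (g : G) : star (leftRegular g) = leftRegular g⁻¹ := by
  refine ext_dl fun k => lp.ext (funext fun h => ?_)
  rw [← inner_dl, inner_star, lr_dl, lr_dl, inner_dl, dl_apply, dl_apply]
  simp [eq_inv_mul_iff_mul_eq]

variable (G) in
/-- the group von Neumann algebra -/
noncomputable def MM : StarSubalgebra ℂ (ltwo G →L[ℂ] ltwo G) := (groupVNA G).toStarSubalgebra

theorem mem_MM {a : ltwo G →L[ℂ] ltwo G} :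
    a ∈ MM G ↔ ∀ y, (∀ g, leftRegular g * y = y * leftRegular g) → y * a = a * y := by
  change a ∈ StarSubalgebra.centralizer ℂ _ ↔ _
  simp only [StarSubalgebra.mem_centralizer_iff, SetLike.mem_coe, Set.forall_mem_range, star_lr]
  refine ⟨fun h y hy => (h y fun g => ⟨hy g, hy _⟩).1, fun h y hy =>
    ⟨h y fun g => (hy g).1, h _ fun g => ?_⟩⟩
  simpa [star_lr] using (congrArg star (hy g).2).symm

instance : IsClosed (MM G : Set (ltwo G →L[ℂ] ltwo G)) := by
  have : (MM G : Set (ltwo G →L[ℂ] ltwo G)) =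
      ⋂ y ∈ {y | ∀ g : G, leftRegular g * y = y * leftRegular g}, {a | y * a = a * y} := by
    ext a; simp [mem_MM]
  rw [this]
  exact isClosed_biInter fun y _ => isClosed_eq (by fun_prop) (by fun_prop)

variable (G) in
/-- left regular representation with values in `MM G` -/
noncomputable def LL : G →* MM G where
  toFun g := ⟨leftRegular g, mem_MM.2 fun y hy => (hy g).symm⟩
  map_one' := Subtype.ext lr_one
  map_mul' g h := Subtype.ext (lr_mul g h)

theorem comm_rt (a : MM G) (g : G) (ξ : ltwo G) : a.1 (rt g ξ) = rt g (a.1 ξ) := by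
  have := mem_MM.1 a.2 (rt g) fun h => ext_dl fun k => by simp [lr_dl, rt_dl, mul_assoc]
  exact (congrArg (fun T : ltwo G →L[ℂ] ltwo G => T ξ) this).symm

theorem apply_dl (a : MM G) (g : G) : a.1 (dl g) = rt g⁻¹ (a.1 (dl 1)) := by
  rw [← comm_rt, rt_dl]; simp

theorem star_coef (a : MM G) (g : G) : (star a).1 (dl 1) g = conj (a.1 (dl 1) g⁻¹) := by
  rw [← inner_dl]
  change ⟪dl g, star a.1 (dl 1)⟫_ℂ = _
  rw [inner_star, ← inner_conj_symm, inner_dl, apply_dl, rt_apply, one_mul]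

theorem dense_dl : Dense (Submodule.span ℂ (Set.range (dl (G := G))) : Set (ltwo G)) := by
  rw [Submodule.dense_iff_topologicalClosure_eq_top, Submodule.topologicalClosure_eq_top_iff,
    Submodule.eq_bot_iff]
  intro ξ hξ
  ext g
  rw [← inner_dl]
  exact hξ _ (Submodule.subset_span ⟨g, rfl⟩)

variable (G) in
/-- the canonical tracial system -/
noncomputable def tG : TS (MM G) where
  Y := ltwo G
  lam := (MM G).subtype
  om := dl 1
  norm_om := by simp [dl]
  tr x y := by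
    have key : ∀ x y : MM G, ⟪dl 1, (x * y).1 (dl 1)⟫_ℂ = ∑' g, x.1 (dl 1) g⁻¹ * y.1 (dl 1) g := by
      intro x y
      have : ⟪dl 1, (x * y).1 (dl 1)⟫_ℂ = ⟪(star x).1 (dl 1), y.1 (dl 1)⟫_ℂ := by
        change ⟪dl 1, x.1 (y.1 (dl 1))⟫_ℂ = ⟪star x.1 (dl 1), _⟫_ℂ
        rw [← inner_star, star_star]
      rw [this, lp.inner_eq_tsum]
      simp only [star_coef, RCLike.inner_apply, Complex.conj_conj, mul_comm]
    change ⟪dl 1, (x * y).1 (dl 1)⟫_ℂ = ⟪dl 1, (y * x).1 (dl 1)⟫_ℂ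
    rw [key, key, ← (Equiv.inv G).tsum_eq]
    simp [mul_comm]
  faith x hx := Subtype.ext (ext_dl fun g => by
    rw [apply_dl]
    have : x.1 (dl 1) = 0 := hx
    simp [this])
  cyc := dense_dl.mono fun v hv => by
    induction hv using Submodule.span_induction with
    | mem v hv => obtain ⟨g, rfl⟩ := hv; exact ⟨LL G g, by simp [LL, lr_dl]⟩
    | zero => exact ⟨0, by simp⟩
    | add x y _ _ hx hy => obtain ⟨a, rfl⟩ := hx; obtain ⟨b, rfl⟩ := hy; exact ⟨a + b, by simp⟩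
    | smul c x _ hx => obtain ⟨a, rfl⟩ := hx; exact ⟨c • a, by simp⟩

theorem tG_τ (a : MM G) : (tG G).τ a = groupTrace G a.1 := rfl

theorem tG_n2 (a : MM G) : (tG G).n2 a = ‖a.1 (dl 1)‖ := rfl

theorem τ_LL (g : G) : (tG G).τ (LL G g) = if g = 1 then 1 else 0 := by
  change ⟪dl 1, leftRegular g (dl 1)⟫_ℂ = _
  rw [lr_dl, inner_dl, dl_apply]; simp [eq_comm]

theorem gen_iff {C K : Type} [CStarAlgebra C] (t : TS C) (π : K → C) :
    Gen t π ↔ Dense (Submodule.span ℂ (Set.range fun k => t.lam (π k) t.om) : Set t.Y) := by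
  let f : C →ₗ[ℂ] t.Y := ((ContinuousLinearMap.apply ℂ t.Y t.om : _ →L[ℂ] _) : _ →ₗ[ℂ] _) ∘ₗ
    (t.lam : C →ₗ[ℂ] (t.Y →L[ℂ] t.Y))
  have e : Submodule.span ℂ (Set.range fun k => t.lam (π k) t.om) =
      (Submodule.span ℂ (Set.range π)).map f := by
    rw [Submodule.map_span, ← Set.range_comp]; rfl
  have hn : ∀ z n, t.n2 (z - n) = dist (f z) (f n) := fun z n => by
    rw [dist_eq_norm, ← map_sub]; rfl
  rw [e]
  refine ⟨fun h => Dense.of_closure (t.cyc.mono ?_), fun h z ε hε => ?_⟩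
  · rintro _ ⟨z, rfl⟩
    refine Metric.mem_closure_iff.2 fun ε hε => ?_
    obtain ⟨n, h1, h2⟩ := h z ε hε
    exact ⟨f n, ⟨n, h1, rfl⟩, by rwa [hn] at h2⟩
  · obtain ⟨_, ⟨n, h1, rfl⟩, h2⟩ := Metric.mem_closure_iff.1 (h (f z)) ε hε
    exact ⟨n, h1, by rwa [hn]⟩

theorem gen_LL : Gen (tG G) (LL G) :=
  (gen_iff _ _).2 (by
    have : (fun k => (tG G).lam (LL G k) (tG G).om) = dl := funext fun g => by
      change leftRegular g (dl 1) = _
      simp [lr_dl]
    rw [this]; exact dense_dl)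

theorem complete_unitary (u : ℕ → MM G) (hu : ∀ n, u n ∈ unitary (MM G))
    (hc : CauchySeq fun n => (tG G).lam (u n) (tG G).om) :
    ∃ v ∈ unitary (MM G), Tendsto (fun n => (tG G).lam (u n) (tG G).om) atTop
      (𝓝 ((tG G).lam v (tG G).om)) := by
  have key : ∀ u : ℕ → MM G, (∀ n, u n ∈ unitary (MM G)) → (CauchySeq fun n => (u n).1 (dl 1)) →
      ∃ v : MM G, ∀ ξ, Tendsto (fun n => (u n).1 ξ) atTop (𝓝 (v.1 ξ)) := by
    intro u hu hc
    have hn : ∀ n, ‖(u n).1‖ ≤ 1 := fun n => by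
      haveI := (tG G).nontrivial
      exact (CStarRing.norm_of_mem_unitary (hu n)).le
    have h1 : ∀ ξ, CauchySeq fun n => (u n).1 ξ := by
      intro ξ
      rw [Metric.cauchySeq_iff']
      intro ε hε
      obtain ⟨_, ⟨b, rfl⟩, hb⟩ := Metric.mem_closure_iff.1 ((tG G).cyc ξ) (ε / 4) (by positivity)
      obtain ⟨N, hN⟩ := Metric.cauchySeq_iff'.1 hc (ε / 2 / (‖b‖ + 1)) (by positivity)
      refine ⟨N, fun n hn' => ?_⟩
      have a1 := hN n hn'
      have a2 := (tG G).n2_mul_right (u n - u N) b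
      have a3 := (u n - u N).1.le_opNorm (ξ - b.1 (dl 1))
      have a4 : ‖(u n - u N).1‖ ≤ 2 := (norm_sub_le (u n).1 (u N).1).trans (by linarith [hn n, hn N])
      rw [dist_eq_norm] at a1 hb ⊢
      rw [lt_div_iff₀ (by positivity)] at a1
      have e : (u n).1 ξ - (u N).1 ξ = (u n - u N).1 (ξ - b.1 (dl 1)) + ((u n - u N) * b).1 (dl 1) := by
        simp; abel
      have hb' : ‖ξ - b.1 (dl 1)‖ < ε / 4 := hb
      have a5 : (tG G).n2 (u n - u N) = ‖(u n).1 (dl 1) - (u N).1 (dl 1)‖ := rfl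
      rw [tG_n2, a5] at a2
      rw [e]
      refine (norm_add_le _ _).trans_lt ?_
      nlinarith [norm_nonneg ((u n).1 (dl 1) - (u N).1 (dl 1)), norm_nonneg (ξ - b.1 (dl 1))]
    choose f hf using fun ξ => cauchySeq_tendsto_of_complete (h1 ξ)
    let T := ContinuousLinearMap.ofTendstoOfBoundedRange f (fun n => (u n).1) (tendsto_pi_nhds.2 hf)
      (isBounded_iff_forall_norm_le.2 ⟨1, by rintro _ ⟨n, rfl⟩; exact hn n⟩)
    refine ⟨⟨T, mem_MM.2 fun y hy => ContinuousLinearMap.ext fun ξ => ?_⟩, hf⟩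
    refine tendsto_nhds_unique ((y.continuous.tendsto _).comp (hf ξ)) ((hf (y ξ)).congr fun n => ?_)
    exact (congrArg (fun T : ltwo G →L[ℂ] ltwo G => T ξ) (mem_MM.1 (u n).2 y hy)).symm
  obtain ⟨v, hv⟩ := key u hu hc
  obtain ⟨w, hw⟩ := key (fun n => star (u n)) (fun n => Unitary.star_mem (hu n)) (by
    rw [Metric.cauchySeq_iff'] at hc ⊢
    intro ε hε
    obtain ⟨N, hN⟩ := hc ε hε
    refine ⟨N, fun n hn => ?_⟩
    have := hN n hn
    rw [dist_eq_norm] at this ⊢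
    have h2 := (tG G).n2_star (u n - u N)
    rw [star_sub] at h2
    exact h2.trans_lt this)
  have hw' : w = star v := Subtype.ext (ContinuousLinearMap.ext fun ξ => ext_inner_left ℂ fun η => by
    refine tendsto_nhds_unique (tendsto_const_nhds.inner (hw ξ)) ?_
    change Tendsto (fun n => ⟪η, star (u n).1 ξ⟫_ℂ) _ (𝓝 ⟪η, star v.1 ξ⟫_ℂ)
    simp only [inner_star]
    exact (hv η).inner tendsto_const_nhds)
  have iso : ∀ (u : ℕ → MM G) (v : MM G), (∀ n, star (u n) * u n = 1) →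
      (∀ ξ, Tendsto (fun n => (u n).1 ξ) atTop (𝓝 (v.1 ξ))) → star v * v = 1 := by
    intro u v hu hv
    refine Subtype.ext (ContinuousLinearMap.ext fun ξ => ext_inner_left ℂ fun η => ?_)
    change ⟪η, star v.1 (v.1 ξ)⟫_ℂ = ⟪η, ξ⟫_ℂ
    rw [inner_star]
    refine tendsto_nhds_unique ((hv η).inner (hv ξ)) (tendsto_const_nhds.congr fun n => ?_)
    rw [← inner_star]
    exact congrArg (fun T : MM G => ⟪η, T.1 ξ⟫_ℂ) (hu n).symm
  refine ⟨v, ⟨iso u v (fun n => (hu n).1) hv, ?_⟩, hv _⟩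
  simpa [hw'] using iso _ w (fun n => by simpa using (hu n).2) hw

theorem comm_of_gen {K : Type} [Group K] (π : K →* MM G)
    (hs : ∀ k, star (π k) = π k⁻¹) (hg : Gen (tG G) π) (y : ltwo G →L[ℂ] ltwo G)
    (hy : ∀ k, (π k).1 * y = y * (π k).1) (x : MM G) : y * x.1 = x.1 * y := by
  have hd : Dense (Submodule.span ℂ (Set.range fun k => (π k).1 (dl 1)) : Set (ltwo G)) :=
    (gen_iff _ _).1 hg
  have hf : ∀ z : MM G, ⟪dl 1, y (z.1 (dl 1))⟫_ℂ = ⟪dl 1, z.1 (y (dl 1))⟫_ℂ := by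
    intro z
    refine eq_of_forall_dist_le fun ε hε => ?_
    obtain ⟨n, h1, h2⟩ := hg z (ε / (2 * (‖y‖ + 1))) (by positivity)
    have h3 : n.1 * y = y * n.1 := by
      clear h2
      induction h1 using Submodule.span_induction with
      | mem _ h => obtain ⟨k, rfl⟩ := h; exact hy k
      | zero => simp
      | add a b _ _ ha hb => simp [add_mul, mul_add, ha, hb]
      | smul c a _ ha => simp [ha]
    have h4 : n.1 (y (dl 1)) = y (n.1 (dl 1)) := congrArg (fun T : ltwo G →L[ℂ] ltwo G => T (dl 1)) h3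
    have e1 : ⟪dl 1, y (z.1 (dl 1))⟫_ℂ - ⟪dl 1, z.1 (y (dl 1))⟫_ℂ =
        ⟪dl 1, y ((z - n).1 (dl 1))⟫_ℂ - ⟪(star (z - n)).1 (dl 1), y (dl 1)⟫_ℂ := by
      change _ = _ - ⟪star (z - n).1 (dl 1), _⟫_ℂ
      rw [← inner_star, star_star]; simp [inner_sub_right, h4]
    have hn : ‖dl (1 : G)‖ = 1 := (tG G).norm_om
    have a1 := norm_inner_le_norm (𝕜 := ℂ) (dl 1) (y ((z - n).1 (dl 1)))
    have a2 := y.le_opNorm ((z - n).1 (dl 1))
    have a3 := norm_inner_le_norm (𝕜 := ℂ) ((star (z - n)).1 (dl 1)) (y (dl 1))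
    have a4 := y.le_opNorm (dl 1)
    rw [← tG_n2, (tG G).n2_star] at a3
    rw [← tG_n2] at a2
    rw [hn] at a1 a4
    rw [dist_eq_norm, e1]
    refine (norm_sub_le _ _).trans ?_
    rw [lt_div_iff₀ (by positivity)] at h2
    nlinarith [(tG G).n2_nonneg (z - n), norm_nonneg y]
  refine ContinuousLinearMap.ext_on hd ?_
  rintro _ ⟨k, rfl⟩
  have : innerSL ℂ ((y * x.1) ((π k).1 (dl 1))) = innerSL ℂ ((x.1 * y) ((π k).1 (dl 1))) →
      (y * x.1) ((π k).1 (dl 1)) = (x.1 * y) ((π k).1 (dl 1)) := fun h =>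
    ext_inner_right ℂ fun v => congrArg (fun T : ltwo G →L[ℂ] ℂ => T v) h
  refine this (ContinuousLinearMap.ext_on hd ?_)
  rintro _ ⟨l, rfl⟩
  have h1 := hf (star (π l) * x * π k)
  have h2 : ∀ l ξ, (π l).1 (y ξ) = y ((π l).1 ξ) :=
    fun l ξ => congrArg (fun T : ltwo G →L[ℂ] ltwo G => T ξ) (hy l)
  change ⟪dl 1, y ((star (π l)).1 (x.1 ((π k).1 (dl 1))))⟫_ℂ =
    ⟪dl 1, star (π l).1 (x.1 ((π k).1 (y (dl 1))))⟫_ℂ at h1
  rw [hs, ← h2, ← hs, h2] at h1
  change ⟪dl 1, star (π l).1 _⟫_ℂ = _ at h1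
  rw [inner_star, inner_star] at h1
  rw [innerSL_apply_apply, innerSL_apply_apply, ← inner_conj_symm, ← inner_conj_symm ((x.1 * y) _)]
  exact congrArg conj h1


end Crest.Agent.FG
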